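import Mathlib

set_option linter.unusedSectionVars false
set_option linter.unusedVariables false
set_option linter.unusedSimpArgs false
set_option linter.unnecessarySeqFocus false

namespace Vale.Agent.Lib.P002.Surf

open Matrix

variable {R : Type*} [CommRing R] {r : ℕ}

/-- Invertible matrices. -/
abbrev GLr (R : Type*) [CommRing R] (r : ℕ) := (Matrix (Fin r) (Fin r) R)ˣ

/-- Upper triangular. -/
def UT (M : Matrix (Fin r) (Fin r) R) : Prop := ∀ i j, j < i → M i j = 0

/-- Lower triangular. -/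
def LT (M : Matrix (Fin r) (Fin r) R) : Prop := ∀ i j, i < j → M i j = 0

lemma UT.mul {M N : Matrix (Fin r) (Fin r) R} (hM : UT M) (hN : UT N) : UT (M * N) := by
  intro i j hji
  rw [Matrix.mul_apply]
  apply Finset.sum_eq_zero
  intro k _
  by_cases hk : k < i
  · rw [hM i k hk, zero_mul]
  · rw [hN k j (lt_of_lt_of_le hji (not_lt.mp hk)), mul_zero]

lemma LT.mul {M N : Matrix (Fin r) (Fin r) R} (hM : LT M) (hN : LT N) : LT (M * N) := by
  intro i j hji
  rw [Matrix.mul_apply]
  apply Finset.sum_eq_zero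
  intro k _
  by_cases hk : i < k
  · rw [hM i k hk, zero_mul]
  · rw [hN k j (lt_of_le_of_lt (not_lt.mp hk) hji), mul_zero]

lemma UT.mul_diag {M N : Matrix (Fin r) (Fin r) R} (hM : UT M) (hN : UT N) (i : Fin r) :
    (M * N) i i = M i i * N i i := by
  rw [Matrix.mul_apply]
  apply Finset.sum_eq_single i
  · intro k _ hk
    rcases lt_or_gt_of_ne hk with h | h
    · rw [hM i k h, zero_mul]
    · rw [hN k i h, mul_zero]
  · simp

lemma LT.mul_diag {M N : Matrix (Fin r) (Fin r) R} (hM : LT M) (hN : LT N) (i : Fin r) :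
    (M * N) i i = M i i * N i i := by
  rw [Matrix.mul_apply]
  apply Finset.sum_eq_single i
  · intro k _ hk
    rcases lt_or_gt_of_ne hk with h | h
    · rw [hN k i h, mul_zero]
    · rw [hM i k h, zero_mul]
  · simp

lemma UT_one : UT (1 : Matrix (Fin r) (Fin r) R) := by
  intro i j h
  exact Matrix.one_apply_ne (ne_of_gt h)

lemma LT_one : LT (1 : Matrix (Fin r) (Fin r) R) := by
  intro i j h
  exact Matrix.one_apply_ne (ne_of_lt h)

lemma UT_iff_block (M : Matrix (Fin r) (Fin r) R) : UT M ↔ M.BlockTriangular id := Iff.rfl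

lemma LT_iff_block (M : Matrix (Fin r) (Fin r) R) :
    LT M ↔ M.BlockTriangular OrderDual.toDual := Iff.rfl

lemma UT_inv {g : GLr R r} (h : UT g.1) : UT (g⁻¹).1 := by
  let _ : Invertible g.1 := g.invertible
  have h1 := Matrix.blockTriangular_inv_of_blockTriangular ((UT_iff_block _).1 h)
  have h2 : (g⁻¹).1 = (g.1)⁻¹ := (Matrix.coe_units_inv g)
  rw [h2]
  exact h1

lemma LT_inv {g : GLr R r} (h : LT g.1) : LT (g⁻¹).1 := by
  let _ : Invertible g.1 := g.invertible
  have h1 := Matrix.blockTriangular_inv_of_blockTriangular ((LT_iff_block _).1 h)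
  have h2 : (g⁻¹).1 = (g.1)⁻¹ := (Matrix.coe_units_inv g)
  rw [h2]
  exact h1

/-- Invertible upper triangular matrices. -/
def Bp (R : Type*) [CommRing R] (r : ℕ) : Subgroup (GLr R r) where
  carrier := {g | UT g.1}
  mul_mem' := fun ha hb => UT.mul ha hb
  one_mem' := UT_one
  inv_mem' := fun h => UT_inv h

/-- Invertible lower triangular matrices. -/
def Bm (R : Type*) [CommRing R] (r : ℕ) : Subgroup (GLr R r) where
  carrier := {g | LT g.1}
  mul_mem' := fun ha hb => LT.mul ha hb
  one_mem' := LT_one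
  inv_mem' := fun h => LT_inv h

lemma mem_Bp {g : GLr R r} : g ∈ Bp R r ↔ UT g.1 := Iff.rfl
lemma mem_Bm {g : GLr R r} : g ∈ Bm R r ↔ LT g.1 := Iff.rfl

lemma diag_mul_inv_Bp {g : GLr R r} (h : g ∈ Bp R r) (i : Fin r) :
    g.1 i i * (g⁻¹).1 i i = 1 := by
  have h1 : (g.1 * (g⁻¹).1) i i = 1 := by
    rw [Units.mul_inv]; simp
  rwa [UT.mul_diag h (UT_inv h)] at h1

lemma diag_inv_mul_Bp {g : GLr R r} (h : g ∈ Bp R r) (i : Fin r) :
    (g⁻¹).1 i i * g.1 i i = 1 := by
  rw [mul_comm]; exact diag_mul_inv_Bp h i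

lemma diag_mul_inv_Bm {g : GLr R r} (h : g ∈ Bm R r) (i : Fin r) :
    g.1 i i * (g⁻¹).1 i i = 1 := by
  have h1 : (g.1 * (g⁻¹).1) i i = 1 := by
    rw [Units.mul_inv]; simp
  rwa [LT.mul_diag h (LT_inv h)] at h1

/-- The diagonal of an element of `Bp`, as a vector of units. -/
def dg (g : Bp R r) : Fin r → Rˣ := fun i =>
  ⟨g.1.1 i i, (g.1⁻¹).1 i i, diag_mul_inv_Bp g.2 i, diag_inv_mul_Bp g.2 i⟩

@[simp] lemma dg_val (g : Bp R r) (i : Fin r) : ((dg g i : Rˣ) : R) = g.1.1 i i := rfl

lemma dg_mul (g h : Bp R r) : dg (g * h) = dg g * dg h := by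
  funext i
  apply Units.ext
  simp only [dg_val, Pi.mul_apply, Units.val_mul, Subgroup.coe_mul]
  exact UT.mul_diag g.2 h.2 i

lemma dg_one : dg (1 : Bp R r) = 1 := by
  funext i
  apply Units.ext
  simp [dg_val]

lemma dg_inv (g : Bp R r) : dg g⁻¹ = (dg g)⁻¹ := by
  have h : dg g⁻¹ * dg g = 1 := by
    rw [← dg_mul, inv_mul_cancel, dg_one]
  exact eq_inv_of_mul_eq_one_left h

/-- The diagonal as a monoid homomorphism. -/
def dgHom : Bp R r →* (Fin r → Rˣ) where
  toFun := dg
  map_one' := dg_one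
  map_mul' := dg_mul

/-- Diagonal invertible matrices. -/
def tor (d : Fin r → Rˣ) : GLr R r where
  val := Matrix.diagonal fun i => (d i : R)
  inv := Matrix.diagonal fun i => ((d i)⁻¹ : Rˣ)
  val_inv := by
    rw [Matrix.diagonal_mul_diagonal]
    simp
  inv_val := by
    rw [Matrix.diagonal_mul_diagonal]
    simp

lemma tor_apply (d : Fin r → Rˣ) (i j : Fin r) :
    (tor d).1 i j = if i = j then (d i : R) else 0 := by
  show Matrix.diagonal _ i j = _
  rw [Matrix.diagonal_apply]

lemma tor_mul (d e : Fin r → Rˣ) : tor (d * e) = tor d * tor e := by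
  apply Units.ext
  show Matrix.diagonal _ = Matrix.diagonal _ * Matrix.diagonal _
  rw [Matrix.diagonal_mul_diagonal]
  rfl

lemma tor_one : tor (1 : Fin r → Rˣ) = 1 := by
  apply Units.ext
  show Matrix.diagonal _ = 1
  simp

lemma tor_inv (d : Fin r → Rˣ) : tor d⁻¹ = (tor d)⁻¹ := by
  apply eq_inv_of_mul_eq_one_left
  rw [← tor_mul]
  simp [tor_one]

lemma tor_mem (d : Fin r → Rˣ) : tor d ∈ Bp R r := by
  intro i j hij
  rw [tor_apply, if_neg (ne_of_gt hij)]

lemma tor_mem_Bm (d : Fin r → Rˣ) : tor d ∈ Bm R r := by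
  intro i j hij
  rw [tor_apply, if_neg (ne_of_lt hij)]

/-- `tor` as an element of `Bp`. -/
def torB (d : Fin r → Rˣ) : Bp R r := ⟨tor d, tor_mem d⟩

lemma dg_torB (d : Fin r → Rˣ) : dg (torB d) = d := by
  funext i
  apply Units.ext
  simp [dg_val, torB, tor_apply]

/-- Upper unitriangular. -/
def Up (R : Type*) [CommRing R] (r : ℕ) : Subgroup (GLr R r) where
  carrier := {g | UT g.1 ∧ ∀ i, g.1 i i = 1}
  mul_mem' := fun {a b} ha hb => ⟨UT.mul ha.1 hb.1, fun i => by
    show (a.1 * b.1) i i = 1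
    rw [UT.mul_diag ha.1 hb.1, ha.2, hb.2, one_mul]⟩
  one_mem' := ⟨UT_one, fun i => by simp⟩
  inv_mem' := fun {a} ha => ⟨UT_inv ha.1, fun i => by
    have := diag_inv_mul_Bp (g := a) ha.1 i
    rwa [ha.2, mul_one] at this⟩

/-- Lower unitriangular. -/
def Um (R : Type*) [CommRing R] (r : ℕ) : Subgroup (GLr R r) where
  carrier := {g | LT g.1 ∧ ∀ i, g.1 i i = 1}
  mul_mem' := fun {a b} ha hb => ⟨LT.mul ha.1 hb.1, fun i => by
    show (a.1 * b.1) i i = 1
    rw [LT.mul_diag ha.1 hb.1, ha.2, hb.2, one_mul]⟩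
  one_mem' := ⟨LT_one, fun i => by simp⟩
  inv_mem' := fun {a} ha => ⟨LT_inv ha.1, fun i => by
    have := diag_mul_inv_Bm (g := a) ha.1 i
    rwa [ha.2, one_mul] at this⟩

lemma Up_le_Bp : Up R r ≤ Bp R r := fun _ h => h.1

lemma mem_Up {g : GLr R r} : g ∈ Up R r ↔ UT g.1 ∧ ∀ i, g.1 i i = 1 := Iff.rfl
lemma mem_Um {g : GLr R r} : g ∈ Um R r ↔ LT g.1 ∧ ∀ i, g.1 i i = 1 := Iff.rfl

/-- The matrix of the order reversing permutation. -/
def w0M : Matrix (Fin r) (Fin r) R := Matrix.of fun i j => if j = Fin.rev i then 1 else 0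

lemma w0M_mul (M : Matrix (Fin r) (Fin r) R) (i j : Fin r) :
    ((w0M : Matrix (Fin r) (Fin r) R) * M) i j = M (Fin.rev i) j := by
  rw [Matrix.mul_apply, Finset.sum_eq_single (Fin.rev i)]
  · simp [w0M]
  · intro k _ hk
    simp [w0M, hk]
  · simp

lemma mul_w0M (M : Matrix (Fin r) (Fin r) R) (i j : Fin r) :
    (M * (w0M : Matrix (Fin r) (Fin r) R)) i j = M i (Fin.rev j) := by
  rw [Matrix.mul_apply, Finset.sum_eq_single (Fin.rev j)]
  · simp [w0M]
  · intro k _ hk
    have : j ≠ Fin.rev k := by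
      intro h
      apply hk
      rw [h, Fin.rev_rev]
    simp [w0M, this]
  · simp

lemma w0M_mul_w0M : (w0M * w0M : Matrix (Fin r) (Fin r) R) = 1 := by
  ext i j
  rw [w0M_mul]
  simp only [w0M, Matrix.of_apply, Fin.rev_rev, Matrix.one_apply]
  by_cases h : i = j
  · simp [h]
  · have : j ≠ i := fun h' => h h'.symm
    simp [h, this]

/-- The order reversing permutation matrix, as an invertible matrix. -/
def w0 : GLr R r where
  val := w0M
  inv := w0M
  val_inv := w0M_mul_w0M
  inv_val := w0M_mul_w0M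

lemma w0_mul_w0 : (w0 * w0 : GLr R r) = 1 := by
  apply Units.ext
  exact w0M_mul_w0M

lemma w0_inv : (w0⁻¹ : GLr R r) = w0 := by
  apply inv_eq_of_mul_eq_one_left
  exact w0_mul_w0

lemma w0_conj_apply (g : GLr R r) (i j : Fin r) :
    (w0 * g * w0).1 i j = g.1 (Fin.rev i) (Fin.rev j) := by
  show (((w0M : Matrix (Fin r) (Fin r) R) * g.1) * (w0M : Matrix (Fin r) (Fin r) R)) i j = _
  rw [mul_w0M, w0M_mul]

lemma rev_lt_rev {i j : Fin r} : Fin.rev i < Fin.rev j ↔ j < i := Fin.rev_lt_rev

lemma w0_conj_Um {g : GLr R r} (h : g ∈ Um R r) : w0 * g * w0 ∈ Up R r := by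
  refine ⟨?_, fun i => ?_⟩
  · intro i j hij
    rw [w0_conj_apply]
    exact h.1 _ _ (rev_lt_rev.2 hij)
  · rw [w0_conj_apply]
    exact h.2 _

lemma w0_conj_Up {g : GLr R r} (h : g ∈ Up R r) : w0 * g * w0 ∈ Um R r := by
  refine ⟨?_, fun i => ?_⟩
  · intro i j hij
    rw [w0_conj_apply]
    exact h.1 _ _ (rev_lt_rev.2 hij)
  · rw [w0_conj_apply]
    exact h.2 _

lemma w0_conj_Bp {g : GLr R r} (h : g ∈ Bp R r) : w0 * g * w0 ∈ Bm R r := by
  intro i j hij
  rw [w0_conj_apply]
  exact h _ _ (rev_lt_rev.2 hij)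

lemma w0_conj_Bm {g : GLr R r} (h : g ∈ Bm R r) : w0 * g * w0 ∈ Bp R r := by
  intro i j hij
  rw [w0_conj_apply]
  exact h _ _ (rev_lt_rev.2 hij)

/-- Reversal of a vector of units. -/
def rv (d : Fin r → Rˣ) : Fin r → Rˣ := fun i => d (Fin.rev i)

lemma rv_mul (d e : Fin r → Rˣ) : rv (d * e) = rv d * rv e := rfl
lemma rv_inv (d : Fin r → Rˣ) : rv d⁻¹ = (rv d)⁻¹ := rfl
lemma rv_rv (d : Fin r → Rˣ) : rv (rv d) = d := by
  funext i
  simp [rv, Fin.rev_rev]

lemma w0_conj_tor (d : Fin r → Rˣ) : (w0 * tor d * w0 : GLr R r) = tor (rv d) := by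
  apply Units.ext
  ext i j
  rw [w0_conj_apply, tor_apply, tor_apply]
  simp [rv, Fin.rev_inj]

/-- A matrix in both `Bp` and `Bm` is diagonal. -/
lemma eq_tor_of_mem {g : GLr R r} (h1 : g ∈ Bp R r) (h2 : g ∈ Bm R r) :
    g = tor (dg ⟨g, h1⟩) := by
  apply Units.ext
  ext i j
  rw [tor_apply]
  by_cases hij : i = j
  · subst hij
    simp [dg_val]
  · rw [if_neg hij]
    rcases lt_or_gt_of_ne hij with h | h
    · exact h2 _ _ h
    · exact h1 _ _ h

/-- An element of `Um` and of `Bp` is trivial. -/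
lemma eq_one_of_Um_Bp {g : GLr R r} (h1 : g ∈ Um R r) (h2 : g ∈ Bp R r) : g = 1 := by
  apply Units.ext
  ext i j
  by_cases hij : i = j
  · subst hij
    simp [h1.2 i]
  · show g.1 i j = (1 : Matrix (Fin r) (Fin r) R) i j
    rw [Matrix.one_apply_ne hij]
    rcases lt_or_gt_of_ne hij with h | h
    · exact h1.1 _ _ h
    · exact h2 _ _ h

/-! ### Functoriality -/

variable {S : Type*} [CommRing S]

/-- Applying a ring homomorphism to an invertible matrix. -/
def GLmap (f : R →+* S) : GLr R r →* GLr S r :=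
  Units.map (RingHom.mapMatrix f : Matrix (Fin r) (Fin r) R →+* Matrix (Fin r) (Fin r) S).toMonoidHom

@[simp] lemma GLmap_apply (f : R →+* S) (g : GLr R r) (i j : Fin r) :
    (GLmap f g).1 i j = f (g.1 i j) := rfl

lemma GLmap_Bp (f : R →+* S) {g : GLr R r} (h : g ∈ Bp R r) : GLmap f g ∈ Bp S r := by
  intro i j hij
  rw [GLmap_apply, h i j hij, map_zero]

lemma GLmap_Bm (f : R →+* S) {g : GLr R r} (h : g ∈ Bm R r) : GLmap f g ∈ Bm S r := by
  intro i j hij
  rw [GLmap_apply, h i j hij, map_zero]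

lemma GLmap_Up (f : R →+* S) {g : GLr R r} (h : g ∈ Up R r) : GLmap f g ∈ Up S r := by
  refine ⟨fun i j hij => ?_, fun i => ?_⟩
  · rw [GLmap_apply, h.1 i j hij, map_zero]
  · rw [GLmap_apply, h.2 i, map_one]

lemma GLmap_Um (f : R →+* S) {g : GLr R r} (h : g ∈ Um R r) : GLmap f g ∈ Um S r := by
  refine ⟨fun i j hij => ?_, fun i => ?_⟩
  · rw [GLmap_apply, h.1 i j hij, map_zero]
  · rw [GLmap_apply, h.2 i, map_one]

lemma GLmap_w0 (f : R →+* S) : GLmap f (w0 : GLr R r) = w0 := by
  apply Units.ext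
  ext i j
  rw [GLmap_apply]
  show f (if j = Fin.rev i then 1 else 0) = if j = Fin.rev i then 1 else 0
  split_ifs <;> simp

lemma GLmap_tor (f : R →+* S) (d : Fin r → Rˣ) :
    GLmap f (tor d) = tor (fun i => Units.map (f : R →* S) (d i)) := by
  apply Units.ext
  ext i j
  rw [GLmap_apply, tor_apply, tor_apply]
  split_ifs <;> simp

/-! ### The LDU factorisation over a commutative ring -/

/-- Leading principal minors. -/
noncomputable def lead (M : Matrix (Fin r) (Fin r) R) (k : ℕ) (hk : k ≤ r) : R :=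
  (M.submatrix (Fin.castLE hk) (Fin.castLE hk)).det

/-- A matrix bordered by a last row and a last column. -/
def bordered (A : Matrix (Fin r) (Fin r) R) (v w : Fin r → R) (d : R) :
    Matrix (Fin (r + 1)) (Fin (r + 1)) R :=
  Matrix.of fun i j =>
    Fin.lastCases (motive := fun _ => R)
      (Fin.lastCases (motive := fun _ => R) d w j)
      (fun i' => Fin.lastCases (motive := fun _ => R) (v i') (fun j' => A i' j') j) i

@[simp] lemma bordered_cc (A : Matrix (Fin r) (Fin r) R) (v w : Fin r → R) (d : R) (i j : Fin r) :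
    bordered A v w d i.castSucc j.castSucc = A i j := by
  simp [bordered]

@[simp] lemma bordered_cl (A : Matrix (Fin r) (Fin r) R) (v w : Fin r → R) (d : R) (i : Fin r) :
    bordered A v w d i.castSucc (Fin.last r) = v i := by
  simp [bordered]

@[simp] lemma bordered_lc (A : Matrix (Fin r) (Fin r) R) (v w : Fin r → R) (d : R) (j : Fin r) :
    bordered A v w d (Fin.last r) j.castSucc = w j := by
  simp [bordered]

@[simp] lemma bordered_ll (A : Matrix (Fin r) (Fin r) R) (v w : Fin r → R) (d : R) :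
    bordered A v w d (Fin.last r) (Fin.last r) = d := by
  simp [bordered]

lemma bordered_LT {A : Matrix (Fin r) (Fin r) R} (hA : LT A) {v : Fin r → R} (hv : ∀ i, v i = 0)
    (w : Fin r → R) (d : R) : LT (bordered A v w d) := by
  intro i j hij
  induction i using Fin.lastCases with
  | last => exact absurd hij (not_lt.mpr (Fin.le_last j))
  | cast i' =>
    induction j using Fin.lastCases with
    | last => simp [hv]
    | cast j' => simpa using hA _ _ (Fin.castSucc_lt_castSucc_iff.mp hij)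

lemma bordered_UT {A : Matrix (Fin r) (Fin r) R} (hA : UT A) {w : Fin r → R} (hw : ∀ i, w i = 0)
    (v : Fin r → R) (d : R) : UT (bordered A v w d) := by
  intro i j hij
  induction j using Fin.lastCases with
  | last => exact absurd hij (not_lt.mpr (Fin.le_last i))
  | cast j' =>
    induction i using Fin.lastCases with
    | last => simp [hw]
    | cast i' => simpa using hA _ _ (Fin.castSucc_lt_castSucc_iff.mp hij)

lemma det_of_LT {M : Matrix (Fin r) (Fin r) R} (h : LT M) : M.det = ∏ i, M i i :=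
  Matrix.det_of_isLowerTriangular M h

lemma det_of_UT {M : Matrix (Fin r) (Fin r) R} (h : UT M) : M.det = ∏ i, M i i :=
  Matrix.det_of_isUpperTriangular h

lemma exists_LU_aux (n : ℕ) (M : Matrix (Fin n) (Fin n) R)
    (h : ∀ k (hk : k ≤ n), IsUnit (lead M k hk)) :
    ∃ L Q : GLr R n, L ∈ Um R n ∧ Q ∈ Bp R n ∧ L.1 * Q.1 = M ∧
      ∀ k (hk : k < n), Q.1 ⟨k, hk⟩ ⟨k, hk⟩ * lead M k hk.le = lead M (k + 1) hk := by
  induction n with
  | zero =>
    refine ⟨1, 1, one_mem _, one_mem _, ?_, fun k hk => absurd hk (Nat.not_lt_zero _)⟩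
    ext i
    exact i.elim0
  | succ n ih =>
    set M' : Matrix (Fin n) (Fin n) R := M.submatrix Fin.castSucc Fin.castSucc with hM'
    have hlead : ∀ k (hk : k ≤ n), lead M' k hk = lead M k (by omega) := by
      intro k hk
      simp only [lead, hM', Matrix.submatrix_submatrix]
      rfl
    obtain ⟨L', Q', hL', hQ', hLQ, hdiag⟩ := ih M' (fun k hk => by
      rw [hlead]; exact h k _)
    -- the border data
    let v : Fin n → R := fun i => M i.castSucc (Fin.last n)
    let w : Fin n → R := fun j => M (Fin.last n) j.castSucc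
    let d : R := M (Fin.last n) (Fin.last n)
    let rowL : Fin n → R := Matrix.vecMul w (Q'⁻¹).1
    let colQ : Fin n → R := Matrix.mulVec (L'⁻¹).1 v
    let piv : R := d - rowL ⬝ᵥ colQ
    let L0 : Matrix (Fin (n + 1)) (Fin (n + 1)) R := bordered L'.1 0 rowL 1
    let Q0 : Matrix (Fin (n + 1)) (Fin (n + 1)) R := bordered Q'.1 colQ 0 piv
    have hL0 : LT L0 := bordered_LT hL'.1 (fun _ => rfl) _ _
    have hQ0 : UT Q0 := bordered_UT hQ' (fun _ => rfl) _ _
    have hmul : L0 * Q0 = M := by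
      ext i j
      rw [Matrix.mul_apply, Fin.sum_univ_castSucc]
      induction i using Fin.lastCases with
      | last =>
        induction j using Fin.lastCases with
        | last =>
          simp only [L0, Q0, bordered_lc, bordered_cl, bordered_ll]
          show rowL ⬝ᵥ colQ + 1 * (d - rowL ⬝ᵥ colQ) = d
          ring
        | cast j' =>
          simp only [L0, Q0, bordered_lc, bordered_cc, bordered_ll, Pi.zero_apply, mul_zero, add_zero]
          show (Matrix.vecMul rowL Q'.1) j' = w j'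
          simp only [rowL]
          rw [Matrix.vecMul_vecMul, Units.inv_mul]
          simp
      | cast i' =>
        induction j using Fin.lastCases with
        | last =>
          simp only [L0, Q0, bordered_cc, bordered_cl, Pi.zero_apply, zero_mul, add_zero]
          show (Matrix.mulVec L'.1 colQ) i' = v i'
          simp only [colQ]
          rw [Matrix.mulVec_mulVec, Units.mul_inv]
          simp
        | cast j' =>
          simp only [L0, Q0, bordered_cc, bordered_cl, Pi.zero_apply, zero_mul, add_zero]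
          have := congrFun (congrFun hLQ i') j'
          rw [Matrix.mul_apply] at this
          rw [this]
          rfl
    have hdetL : L0.det = 1 := by
      rw [det_of_LT hL0, Fin.prod_univ_castSucc]
      simp [L0, hL'.2]
    have hdetM : M.det = lead M (n + 1) le_rfl := by
      simp only [lead]
      congr 1
    have hdetQ : Q0.det = M.det := by
      rw [← hmul, Matrix.det_mul, hdetL, one_mul]
    have hunitM : IsUnit M.det := by
      rw [hdetM]; exact h _ _
    have hL0u : IsUnit L0.det := by rw [hdetL]; exact isUnit_one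
    have hQ0u : IsUnit Q0.det := by rw [hdetQ]; exact hunitM
    refine ⟨Matrix.nonsingInvUnit L0 hL0u, Matrix.nonsingInvUnit Q0 hQ0u, ⟨hL0, ?_⟩, hQ0, hmul, ?_⟩
    · intro i
      induction i using Fin.lastCases with
      | last => simp [Matrix.nonsingInvUnit, L0]
      | cast i' => simpa [Matrix.nonsingInvUnit, L0] using hL'.2 i'
    · intro k hk
      show Q0 ⟨k, hk⟩ ⟨k, hk⟩ * _ = _
      by_cases hkn : k < n
      · have e : (⟨k, hk⟩ : Fin (n + 1)) = (⟨k, hkn⟩ : Fin n).castSucc := rfl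
        rw [e]
        simp only [Q0, bordered_cc]
        have := hdiag k hkn
        rw [hlead, hlead] at this
        exact this
      · have hk' : k = n := by omega
        subst hk'
        have e : (⟨k, hk⟩ : Fin (k + 1)) = Fin.last k := rfl
        rw [e]
        simp only [Q0, bordered_ll]
        have h1 : lead M k (by omega) = M'.det := by
          simp only [lead, hM']
          rfl
        have h2 : M'.det = ∏ i, Q'.1 i i := by
          rw [← hLQ, Matrix.det_mul, det_of_LT hL'.1, det_of_UT hQ']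
          simp [hL'.2]
        have h3 : lead M (k + 1) hk = ∏ i, Q0 i i := by
          rw [← hdetM, ← hdetQ, det_of_UT hQ0]
        rw [h3, Fin.prod_univ_castSucc, h1, h2]
        simp only [Q0, bordered_cc, bordered_ll]
        rw [mul_comm]

/-- The `LDU` factorisation. -/
theorem exists_LU {n : ℕ} (M : Matrix (Fin n) (Fin n) R)
    (h : ∀ k (hk : k ≤ n), IsUnit (lead M k hk)) :
    ∃ L Q : GLr R n, L ∈ Um R n ∧ Q ∈ Bp R n ∧ L.1 * Q.1 = M ∧
      ∀ k (hk : k < n), Q.1 ⟨k, hk⟩ ⟨k, hk⟩ * lead M k hk.le = lead M (k + 1) hk :=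
  exists_LU_aux n M h

end Vale.Agent.Lib.P002.Surf
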