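import Mathlib
import Vale.Agent.Lib.P002.Surf.Tri

set_option linter.unusedSectionVars false
set_option linter.unusedVariables false
set_option linter.unusedSimpArgs false
set_option linter.unnecessarySeqFocus false

namespace Vale.Agent.Lib.P002.Surf

open Matrix

variable {R : Type*} [CommRing R]

/-- The recursive family of unitriangular matrices: a product of bidiagonal layers. -/
def Uc (c : ℕ → ℕ → R) : ℕ → ℕ → ℕ → R
  | 0, i, j => if i = j then 1 else 0
  | m + 1, i, 0 => Uc c m i 0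
  | m + 1, i, j + 1 =>
      if j ≤ m then Uc c m i (j + 1) + c (m + 1) j * Uc c m i j else Uc c m i (j + 1)

lemma Uc_zero (c : ℕ → ℕ → R) (i j : ℕ) : Uc c 0 i j = if i = j then 1 else 0 := by
  simp [Uc]

lemma Uc_succ_zero (c : ℕ → ℕ → R) (m i : ℕ) : Uc c (m + 1) i 0 = Uc c m i 0 := by
  simp [Uc]

lemma Uc_succ_succ (c : ℕ → ℕ → R) (m i j : ℕ) (hj : j ≤ m) :
    Uc c (m + 1) i (j + 1) = Uc c m i (j + 1) + c (m + 1) j * Uc c m i j := by
  simp [Uc, hj]

lemma Uc_succ_big (c : ℕ → ℕ → R) (m i j : ℕ) (hj : m < j) :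
    Uc c (m + 1) i (j + 1) = Uc c m i (j + 1) := by
  simp [Uc, not_le.mpr hj]

lemma Uc_lt (c : ℕ → ℕ → R) (m : ℕ) : ∀ i j, j < i → Uc c m i j = 0 := by
  induction m with
  | zero =>
    intro i j h
    rw [Uc_zero, if_neg (ne_of_gt h)]
  | succ m ih =>
    intro i j h
    cases j with
    | zero => rw [Uc_succ_zero]; exact ih _ _ h
    | succ j =>
      by_cases hj : j ≤ m
      · rw [Uc_succ_succ c m i j hj, ih _ _ h, ih _ _ (by omega), mul_zero, add_zero]
      · rw [Uc_succ_big c m i j (by omega)]; exact ih _ _ h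

lemma Uc_self (c : ℕ → ℕ → R) (m i : ℕ) : Uc c m i i = 1 := by
  induction m generalizing i with
  | zero => rw [Uc_zero, if_pos rfl]
  | succ m ih =>
    cases i with
    | zero => rw [Uc_succ_zero]; exact ih 0
    | succ j =>
      by_cases hj : j ≤ m
      · rw [Uc_succ_succ c m _ j hj, ih, Uc_lt c m _ _ (by omega), mul_zero, add_zero]
      · rw [Uc_succ_big c m _ j (by omega)]; exact ih _

lemma Uc_beyond (c : ℕ → ℕ → R) (m : ℕ) : ∀ i j, m < j → i ≠ j → Uc c m i j = 0 := by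
  induction m with
  | zero =>
    intro i j _ h
    rw [Uc_zero, if_neg h]
  | succ m ih =>
    intro i j hj hij
    cases j with
    | zero => omega
    | succ j =>
      rw [Uc_succ_big c m i j (by omega)]
      exact ih _ _ (by omega) hij

lemma Uc_congr {c c' : ℕ → ℕ → R} (m : ℕ) (h : ∀ l j, l ≤ m → c l j = c' l j) (i j : ℕ) :
    Uc c m i j = Uc c' m i j := by
  induction m generalizing i j with
  | zero => rw [Uc_zero, Uc_zero]
  | succ m ih =>
    have ih' := ih (fun l j hl => h l j (by omega))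
    cases j with
    | zero => rw [Uc_succ_zero, Uc_succ_zero, ih']
    | succ j =>
      by_cases hj : j ≤ m
      · rw [Uc_succ_succ c m i j hj, Uc_succ_succ c' m i j hj, ih', ih', h _ _ le_rfl]
      · rw [Uc_succ_big c m i j (by omega), Uc_succ_big c' m i j (by omega), ih']

/-- The corner minors, with the columns in reversed order. -/
noncomputable def Dm (c : ℕ → ℕ → R) (m k : ℕ) : R :=
  (Matrix.of fun i j : Fin k => Uc c m i (m - j)).det

/-- The bidiagonal matrix of one layer. -/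
def layerT (c : ℕ → ℕ → R) (m k : ℕ) : Matrix (Fin k) (Fin k) R :=
  Matrix.of fun a b =>
    (if a = b then c (m + 1) (m - b) else 0) + (if a.val + 1 = b.val then 1 else 0)

lemma layerT_UT (c : ℕ → ℕ → R) (m k : ℕ) : UT (layerT c m k) := by
  intro a b hab
  simp only [layerT, Matrix.of_apply]
  rw [if_neg (ne_of_gt hab), if_neg]
  · simp
  · have : b.val < a.val := hab
    omega

lemma layerT_det (c : ℕ → ℕ → R) (m k : ℕ) :
    (layerT c m k).det = ∏ j : Fin k, c (m + 1) (m - j) := by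
  rw [det_of_UT (layerT_UT c m k)]
  apply Finset.prod_congr rfl
  intro j _
  simp [layerT]

lemma layer_factor (c : ℕ → ℕ → R) (m k : ℕ) (hk : k ≤ m + 1) :
    (Matrix.of fun i j : Fin k => Uc c (m + 1) i (m + 1 - j)) =
      (Matrix.of fun i j : Fin k => Uc c m i (m - j)) * layerT c m k := by
  ext i j
  rw [Matrix.mul_apply]
  simp only [layerT, Matrix.of_apply, mul_add, Finset.sum_add_distrib]
  have hjk : j.val < k := j.isLt
  have hik : i.val < k := i.isLt
  have h1 : ∑ x : Fin k, Uc c m i (m - x) * (if x = j then c (m + 1) (m - j) else 0) =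
      Uc c m i (m - j) * c (m + 1) (m - j) := by
    rw [Finset.sum_eq_single j]
    · simp
    · intro b _ hb
      simp [hb]
    · simp
  rw [h1]
  by_cases hj0 : j.val = 0
  · rw [Finset.sum_eq_zero]
    · rw [hj0]
      simp only [Nat.sub_zero]
      rw [Uc_succ_succ c m i m le_rfl, Uc_beyond c m i (m + 1) (by omega) (by omega)]
      ring
    · intro x _
      rw [if_neg (by omega), mul_zero]
  · have hjm : m + 1 - j.val = (m - j.val) + 1 := by omega
    rw [hjm, Uc_succ_succ c m i (m - j.val) (by omega)]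
    rw [Finset.sum_eq_single (⟨j.val - 1, by omega⟩ : Fin k)]
    · have : (⟨j.val - 1, by omega⟩ : Fin k).val + 1 = j.val := by
        show j.val - 1 + 1 = j.val
        omega
      rw [if_pos this]
      have h2 : m - (j.val - 1) = m - j.val + 1 := by omega
      show _ = Uc c m i (m - j.val) * c (m + 1) (m - j.val) + Uc c m i (m - (j.val - 1)) * 1
      rw [h2]
      ring
    · intro b _ hb
      rw [if_neg, mul_zero]
      intro h
      apply hb
      apply Fin.ext
      show b.val = j.val - 1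
      omega
    · simp

lemma Dm_succ (c : ℕ → ℕ → R) (m k : ℕ) (hk : k ≤ m + 1) :
    Dm c (m + 1) k = Dm c m k * ∏ j : Fin k, c (m + 1) (m - j) := by
  simp only [Dm]
  rw [layer_factor c m k hk, Matrix.det_mul, layerT_det]

lemma Uc_UT (c : ℕ → ℕ → R) (m : ℕ) :
    UT (Matrix.of fun i j : Fin (m + 1) => Uc c m i j) := by
  intro i j h
  exact Uc_lt c m _ _ h

lemma Dm_top_unit (c : ℕ → ℕ → R) (m : ℕ) : IsUnit (Dm c m (m + 1)) := by
  have h1 : (Matrix.of fun i j : Fin (m + 1) => Uc c m i (m - j)) =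
      (Matrix.of fun i j : Fin (m + 1) => Uc c m i j).submatrix id Fin.revPerm := by
    ext i j
    simp only [Matrix.of_apply, Matrix.submatrix_apply, id]
    congr 1
    simp [Fin.revPerm, Fin.val_rev]
  have h2 : (Matrix.of fun i j : Fin (m + 1) => Uc c m i j).det = 1 := by
    rw [det_of_UT (Uc_UT c m)]
    simp [Uc_self]
  simp only [Dm]
  rw [h1, Matrix.det_permute', h2, mul_one]
  exact (Equiv.Perm.sign Fin.revPerm).isUnit.map (Int.castRingHom R)

lemma Dm_isUnit {c : ℕ → ℕ → R} (hc : ∀ l j, IsUnit (c l j)) (m : ℕ) :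
    ∀ k, k ≤ m + 1 → IsUnit (Dm c m k) := by
  induction m with
  | zero =>
    intro k hk
    interval_cases k
    · simp [Dm]
    · exact Dm_top_unit c 0
  | succ m ih =>
    intro k hk
    by_cases hk' : k = m + 2
    · subst hk'; exact Dm_top_unit c (m + 1)
    · rw [Dm_succ c m k (by omega)]
      refine (ih k (by omega)).mul ?_
      exact IsUnit.prod_univ_iff.mpr fun j => hc _ _

/-- The unitriangular matrix of a parameter family. -/
def UcM (c : ℕ → ℕ → R) (ρ : ℕ) : Matrix (Fin (ρ + 1)) (Fin (ρ + 1)) R :=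
  Matrix.of fun i j => Uc c ρ i j

lemma UcM_det (c : ℕ → ℕ → R) (ρ : ℕ) : (UcM c ρ).det = 1 := by
  have h := det_of_UT (Uc_UT c ρ)
  show (Matrix.of fun i j : Fin (ρ + 1) => Uc c ρ i j).det = 1
  rw [h]
  simp [Uc_self]

/-- The unitriangular matrix as an invertible matrix. -/
noncomputable def UcG (c : ℕ → ℕ → R) (ρ : ℕ) : GLr R (ρ + 1) :=
  Matrix.nonsingInvUnit (UcM c ρ) (by rw [UcM_det]; exact isUnit_one)

lemma UcG_val (c : ℕ → ℕ → R) (ρ : ℕ) : (UcG c ρ).1 = UcM c ρ := rfl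

lemma UcG_mem (c : ℕ → ℕ → R) (ρ : ℕ) : UcG c ρ ∈ Up R (ρ + 1) := by
  refine ⟨Uc_UT c ρ, fun i => ?_⟩
  rw [UcG_val]
  simp [UcM, Uc_self]

lemma lead_UcG_mul (c : ℕ → ℕ → R) (ρ k : ℕ) (hk : k ≤ ρ + 1) :
    lead ((UcG c ρ * w0 : GLr R (ρ + 1)).1) k hk = Dm c ρ k := by
  simp only [lead, Dm]
  congr 1
  ext i j
  show ((UcM c ρ) * (w0M : Matrix (Fin (ρ + 1)) (Fin (ρ + 1)) R)) _ _ = _
  rw [mul_w0M]
  simp only [UcM, Matrix.of_apply]
  congr 1
  rw [Fin.val_rev]
  simp

/-- A triangle: a unitriangular matrix together with its Gauss factorisation after reversal. -/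
structure Tri (R : Type*) [CommRing R] (r : ℕ) where
  u : GLr R r
  h : GLr R r
  b : GLr R r
  hu : u ∈ Up R r
  hh : h ∈ Um R r
  hb : b ∈ Bp R r
  rel : u * w0 = h * b

lemma exists_tri (c : ℕ → ℕ → R) (hc : ∀ l j, IsUnit (c l j)) (ρ : ℕ) :
    ∃ T : Tri R (ρ + 1), T.u = UcG c ρ ∧
      ∀ k (hk : k < ρ + 1), T.b.1 ⟨k, hk⟩ ⟨k, hk⟩ * Dm c ρ k = Dm c ρ (k + 1) := by
  obtain ⟨L, Q, hL, hQ, hLQ, hd⟩ := exists_LU ((UcG c ρ * w0 : GLr R (ρ + 1)).1) (by
    intro k hk
    rw [lead_UcG_mul]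
    exact Dm_isUnit hc ρ k hk)
  refine ⟨⟨UcG c ρ, L, Q, UcG_mem c ρ, hL, hQ, ?_⟩, rfl, ?_⟩
  · apply Units.ext
    exact hLQ.symm
  · intro k hk
    have := hd k hk
    rwa [lead_UcG_mul, lead_UcG_mul] at this

/-- The parameters of a triangle with a prescribed top layer. -/
noncomputable def withTop (cl : ℕ → ℕ → Rˣ) (e : ℕ → Rˣ) (m : ℕ) : ℕ → ℕ → Rˣ :=
  fun l j => if l = m + 1 then e (m - j) else cl l j

lemma withTop_low (cl : ℕ → ℕ → Rˣ) (e : ℕ → Rˣ) (m l j : ℕ) (hl : l ≤ m) :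
    withTop cl e m l j = cl l j := by
  simp only [withTop]
  rw [if_neg (by omega)]

lemma Dm_withTop (cl : ℕ → ℕ → Rˣ) (e : ℕ → Rˣ) (m k : ℕ) (hk : k ≤ m + 1) :
    Dm (fun l j => ((withTop cl e m l j : Rˣ) : R)) (m + 1) k =
      Dm (fun l j => ((cl l j : Rˣ) : R)) m k * ((∏ j ∈ Finset.range k, e j : Rˣ) : R) := by
  rw [Dm_succ _ m k hk]
  congr 1
  · simp only [Dm]
    congr 1
    ext i j
    simp only [Matrix.of_apply]
    apply Uc_congr
    intro l j' hl
    rw [withTop_low _ _ _ _ _ hl]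
  · rw [← Fin.prod_univ_eq_prod_range e k]
    rw [Units.coe_prod]
    apply Finset.prod_congr rfl
    intro j _
    simp only [withTop, if_true]
    have hj : j.val < k := j.isLt
    have : m - (m - j.val) = j.val := by omega
    rw [this]

/-- The unit version of the minors. -/
noncomputable def DmU (cl : ℕ → ℕ → Rˣ) (m k : ℕ) : Rˣ :=
  if hk : k ≤ m + 1 then (Dm_isUnit (c := fun l j => ((cl l j : Rˣ) : R))
    (fun l j => (cl l j).isUnit) m k hk).unit else 1

lemma DmU_val (cl : ℕ → ℕ → Rˣ) (m k : ℕ) (hk : k ≤ m + 1) :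
    ((DmU cl m k : Rˣ) : R) = Dm (fun l j => ((cl l j : Rˣ) : R)) m k := by
  simp [DmU, hk]

lemma DmU_zero (cl : ℕ → ℕ → Rˣ) (m : ℕ) : DmU cl m 0 = 1 := by
  apply Units.ext
  rw [DmU_val _ _ _ (by omega)]
  simp [Dm]

/-- The top layer realising a prescribed pivot vector `τ`. -/
noncomputable def topLayer (cl : ℕ → ℕ → Rˣ) (τ : ℕ → Rˣ) (m : ℕ) : ℕ → Rˣ :=
  fun j => ((∏ i ∈ Finset.range (j + 1), τ i) / DmU cl m (j + 1)) /
    ((∏ i ∈ Finset.range j, τ i) / DmU cl m j)

lemma prod_topLayer (cl : ℕ → ℕ → Rˣ) (τ : ℕ → Rˣ) (m k : ℕ) :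
    ∏ j ∈ Finset.range k, topLayer cl τ m j =
      (∏ i ∈ Finset.range k, τ i) / DmU cl m k := by
  have := Finset.prod_range_div
    (fun j => (∏ i ∈ Finset.range j, τ i) / DmU cl m j) k
  simp only [Finset.prod_range_zero, DmU_zero, div_one, one_div] at this
  simp only [topLayer]
  rw [this]

lemma Dm_prescribed (cl : ℕ → ℕ → Rˣ) (τ : ℕ → Rˣ) (m k : ℕ) (hk : k ≤ m + 1) :
    Dm (fun l j => ((withTop cl (topLayer cl τ m) m l j : Rˣ) : R)) (m + 1) k =
      ((∏ i ∈ Finset.range k, τ i : Rˣ) : R) := by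
  rw [Dm_withTop _ _ m k hk, prod_topLayer, ← DmU_val _ _ _ hk, ← Units.val_mul]
  simp

/-- A triangle with prescribed pivots (except possibly the last one). -/
lemma exists_tri_prescribed (cl : ℕ → ℕ → Rˣ) (τ : ℕ → Rˣ) (m : ℕ) :
    ∃ T : Tri R (m + 2), T.u = UcG (fun l j => ((withTop cl (topLayer cl τ m) m l j : Rˣ) : R))
        (m + 1) ∧
      ∀ k (hk : k < m + 1), T.b.1 ⟨k, by omega⟩ ⟨k, by omega⟩ = τ k := by
  obtain ⟨T, hT, hd⟩ := exists_tri (fun l j => ((withTop cl (topLayer cl τ m) m l j : Rˣ) : R))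
    (fun l j => (withTop cl (topLayer cl τ m) m l j).isUnit) (m + 1)
  refine ⟨T, hT, fun k hk => ?_⟩
  have h1 := hd k (by omega)
  rw [Dm_prescribed _ _ _ _ (by omega), Dm_prescribed _ _ _ _ (by omega),
    Finset.prod_range_succ] at h1
  rw [Units.val_mul, mul_comm] at h1
  exact (Units.mul_right_inj _).1 h1

end Vale.Agent.Lib.P002.Surf
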