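import Mathlib
import Vale.Agent.Lib.P002.Surf.Cell

set_option linter.unusedSectionVars false
set_option linter.unusedVariables false
set_option linter.unusedSimpArgs false
set_option linter.unnecessarySeqFocus false

namespace Vale.Agent.Lib.P002.Surf

open Matrix

variable {R : Type*} [CommRing R] {r : ℕ}

/-- A closed chain of frames around a polygon with `m` sides. -/
structure Chain (R : Type*) [CommRing R] (r m : ℕ) where
  φ : ℕ → GLr R r
  β : ℕ → Bp R r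
  step : ∀ i, i < m → φ (i + 1) = φ i * w0 * (β (i + 1)).1
  start : φ 0 = 1
  stop : φ m = 1

/-- A fan of triangles. -/
structure Fan (R : Type*) [CommRing R] (r m : ℕ) where
  uu : ℕ → GLr R r
  hh : ℕ → GLr R r
  bb : ℕ → GLr R r
  huu : ∀ i, uu i ∈ Up R r
  hhh : ∀ i, hh i ∈ Um R r
  hbb : ∀ i, bb i ∈ Bp R r
  rel : ∀ i, 1 ≤ i → i + 2 ≤ m → uu i * w0 = hh i * bb i
  bb0 : bb 0 = 1
  hhlast : hh (m - 1) = 1

namespace Fan

variable {m : ℕ} (F : Fan R r m)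

/-- The partial products. -/
def GG : ℕ → GLr R r
  | 0 => 1
  | 1 => 1
  | i + 2 => GG (i + 1) * F.uu (i + 1)

lemma GG_mem : ∀ i, F.GG i ∈ Up R r
  | 0 => one_mem _
  | 1 => one_mem _
  | i + 2 => mul_mem (GG_mem (i + 1)) (F.huu _)

lemma w0_conj_hh_mem (i : ℕ) : w0 * F.hh i * w0 ∈ Bp R r :=
  Up_le_Bp (w0_conj_Um (F.hhh i))

/-- The frames. -/
def phi (i : ℕ) : GLr R r :=
  if i = 0 ∨ i = m then 1 else F.GG i * F.hh i * w0

/-- The transition elements. -/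
def beta (i : ℕ) : Bp R r :=
  if i = m then ⟨(F.GG (m - 1))⁻¹, inv_mem (Up_le_Bp (F.GG_mem _))⟩
  else ⟨F.bb (i - 1) * (w0 * F.hh i * w0), mul_mem (F.hbb _) (F.w0_conj_hh_mem i)⟩

lemma phi_zero : F.phi 0 = 1 := by simp [phi]
lemma phi_m : F.phi m = 1 := by simp [phi]
lemma phi_mid {i : ℕ} (h0 : i ≠ 0) (hm : i ≠ m) : F.phi i = F.GG i * F.hh i * w0 := by
  simp [phi, h0, hm]

lemma beta_m : (F.beta m).1 = (F.GG (m - 1))⁻¹ := by simp [beta]
lemma beta_mid {i : ℕ} (hm : i ≠ m) : (F.beta i).1 = F.bb (i - 1) * (w0 * F.hh i * w0) := by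
  simp [beta, hm]

lemma phi_step (hm : 2 ≤ m) (i : ℕ) (hi : i < m) :
    F.phi (i + 1) = F.phi i * w0 * (F.beta (i + 1)).1 := by
  by_cases h0 : i = 0
  · subst h0
    rw [F.phi_zero, F.phi_mid (by omega) (by omega), F.beta_mid (by omega)]
    simp only [Nat.add_sub_cancel, zero_add, F.bb0]
    show F.GG 1 * F.hh 1 * w0 = _
    have h1 : F.GG 1 = 1 := rfl
    rw [h1]
    have h2 : (w0 * w0 : GLr R r) = 1 := w0_mul_w0
    calc (1 : GLr R r) * F.hh 1 * w0 = (w0 * w0) * F.hh 1 * w0 := by rw [h2]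
      _ = 1 * w0 * (1 * (w0 * F.hh 1 * w0)) := by group
  by_cases hl : i + 1 = m
  · have hi' : i = m - 1 := by omega
    rw [hl, F.phi_m, F.phi_mid h0 (by omega), F.beta_m, ← hi', ]
    rw [hi', F.hhlast]
    have h2 : (w0 * w0 : GLr R r) = 1 := w0_mul_w0
    calc (1 : GLr R r) = F.GG (m - 1) * (w0 * w0) * (F.GG (m - 1))⁻¹ := by rw [h2]; group
      _ = _ := by group
  · rw [F.phi_mid (by omega) hl, F.phi_mid h0 (by omega), F.beta_mid hl]
    simp only [Nat.add_sub_cancel]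
    have hr := F.rel i (by omega) (by omega)
    have hG : F.GG (i + 1) = F.GG i * F.uu i := by
      obtain ⟨k, rfl⟩ : ∃ k, i = k + 1 := ⟨i - 1, by omega⟩
      rfl
    rw [hG]
    have h2 : (w0 * w0 : GLr R r) = 1 := w0_mul_w0
    have hu : F.uu i = F.hh i * F.bb i * w0 := by
      calc F.uu i = F.uu i * (w0 * w0) := by rw [h2, mul_one]
        _ = (F.uu i * w0) * w0 := by group
        _ = _ := by rw [hr]
    rw [hu]
    calc F.GG i * (F.hh i * F.bb i * w0) * F.hh (i + 1) * w0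
        = F.GG i * F.hh i * 1 * F.bb i * w0 * F.hh (i + 1) * w0 := by group
      _ = F.GG i * F.hh i * (w0 * w0) * F.bb i * w0 * F.hh (i + 1) * w0 := by rw [h2]
      _ = _ := by group

/-- The chain of a fan. -/
def chain (hm : 2 ≤ m) : Chain R r m where
  φ := F.phi
  β := F.beta
  step := F.phi_step hm
  start := F.phi_zero
  stop := F.phi_m

/-- The diagonal of the transitions. -/
lemma dg_beta_mid {i : ℕ} (hm : i ≠ m) (hb : F.bb (i - 1) ∈ Bp R r) :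
    dg (F.beta i) = dg ⟨F.bb (i - 1), hb⟩ := by
  funext k
  apply Units.ext
  simp only [dg_val]
  rw [F.beta_mid hm]
  show (F.bb (i - 1) * (w0 * F.hh i * w0)).1 k k = _
  have h1 : ((F.bb (i - 1) * (w0 * F.hh i * w0)).1 : Matrix (Fin r) (Fin r) R) =
      (F.bb (i - 1)).1 * (w0 * F.hh i * w0).1 := rfl
  rw [h1, UT.mul_diag (F.hbb _) (F.w0_conj_hh_mem i), (w0_conj_Um (F.hhh i)).2 k, mul_one]

lemma dg_beta_m : dg (F.beta m) = 1 := by
  funext k
  apply Units.ext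
  simp only [dg_val, Pi.one_apply, Units.val_one]
  rw [F.beta_m]
  exact (inv_mem (F.GG_mem _)).2 k

end Fan

/-! ### Words around the polygon -/

/-- The determinant of an invertible matrix. -/
noncomputable def gdet : GLr R r →* Rˣ := Matrix.GeneralLinearGroup.det

@[simp] lemma gdet_val (g : GLr R r) : ((gdet g : Rˣ) : R) = g.1.det := rfl

namespace Chain

variable {m : ℕ} (C : Chain R r m)

/-- The holonomy attached to a spike. -/
def sW (i : ℕ) (z : Fin r → Rˣ) : GLr R r := C.φ (i + 1) * w0 * tor z * (C.φ i)⁻¹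

/-- The upper triangular part of the spike word. -/
def sQ (i : ℕ) (z : Fin r → Rˣ) : Bp R r := (C.β (i + 2))⁻¹ * torB z

lemma sW_word {i : ℕ} (hi : i + 2 ≤ m) (z : Fin r → Rˣ) :
    C.sW i z = C.φ (i + 2) * (C.sQ i z).1 * (C.φ i)⁻¹ := by
  simp only [sW, sQ]
  rw [C.step (i + 1) (by omega)]
  show _ = C.φ (i + 1) * w0 * (C.β (i + 1 + 1)).1 * ((C.β (i + 2)).1⁻¹ * tor z) * (C.φ i)⁻¹
  group

/-- The conjugate form of the spike word. -/
def sB (i : ℕ) (z : Fin r → Rˣ) : Bp R r := torB (rv z) * C.β (i + 1)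

lemma sW_conj {i : ℕ} (hi : i + 1 ≤ m) (z : Fin r → Rˣ) :
    C.sW i z = C.φ (i + 1) * (C.sB i z).1 * (C.φ (i + 1))⁻¹ := by
  simp only [sW, sB]
  have h := C.step i (by omega)
  have h1 : (C.φ i)⁻¹ = w0 * (C.β (i + 1)).1 * (C.φ (i + 1))⁻¹ := by
    rw [h]
    group
  rw [h1]
  show _ = C.φ (i + 1) * (tor (rv z) * (C.β (i + 1)).1) * _
  rw [← w0_conj_tor]
  group

lemma dg_sB (i : ℕ) (z : Fin r → Rˣ) : dg (C.sB i z) = rv z * dg (C.β (i + 1)) := by
  simp only [sB]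
  rw [dg_mul, dg_torB]

lemma dg_sQ (i : ℕ) (z : Fin r → Rˣ) : dg (C.sQ i z) = (dg (C.β (i + 2)))⁻¹ * z := by
  simp only [sQ]
  rw [dg_mul, dg_torB, dg_inv]

/-- First generator of a handle. -/
def hA (e : ℕ) (z : Fin r → Rˣ) : GLr R r := C.φ (e + 2) * w0 * tor z * (C.φ e)⁻¹

/-- Second generator of a handle. -/
def hB (e : ℕ) (z : Fin r → Rˣ) : GLr R r := C.φ (e + 3) * w0 * tor z * (C.φ (e + 1))⁻¹

/-- Triangular pieces of a handle word. -/
def hQ1 (e : ℕ) (z : Fin r → Rˣ) : Bp R r := (C.β (e + 3))⁻¹ * torB z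
def hQ2 (e : ℕ) (z' : Fin r → Rˣ) : Bp R r := (C.β (e + 2))⁻¹ * torB (rv z')⁻¹
def hQ3 (e : ℕ) (z : Fin r → Rˣ) : Bp R r := (C.β (e + 1))⁻¹ * torB (rv z)⁻¹
def hQ4 (e : ℕ) (z' : Fin r → Rˣ) : Bp R r := (C.β (e + 4))⁻¹ * torB z'

variable {e : ℕ}

lemma hA_word (he : e + 3 ≤ m) (z : Fin r → Rˣ) :
    C.hA e z = C.φ (e + 3) * (C.hQ1 e z).1 * (C.φ e)⁻¹ := by
  simp only [hA, hQ1]
  rw [C.step (e + 2) (by omega)]
  show _ = C.φ (e + 2) * w0 * (C.β (e + 2 + 1)).1 * ((C.β (e + 3)).1⁻¹ * tor z) * _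
  group

lemma hB_word (he : e + 4 ≤ m) (z' : Fin r → Rˣ) :
    C.hB e z' = C.φ (e + 4) * (C.hQ4 e z').1 * (C.φ (e + 1))⁻¹ := by
  simp only [hB, hQ4]
  rw [C.step (e + 3) (by omega)]
  show _ = C.φ (e + 3) * w0 * (C.β (e + 3 + 1)).1 * ((C.β (e + 4)).1⁻¹ * tor z') * _
  group

lemma hA_inv_word (he : e + 2 ≤ m) (z : Fin r → Rˣ) :
    (C.hA e z)⁻¹ = C.φ (e + 1) * (C.hQ3 e z).1 * (C.φ (e + 2))⁻¹ := by
  simp only [hA, hQ3]
  have h := C.step e (by omega)
  show _ = C.φ (e + 1) * ((C.β (e + 1)).1⁻¹ * tor (rv z)⁻¹) * (C.φ (e + 2))⁻¹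
  rw [h, tor_inv, ← w0_conj_tor]
  group

lemma hB_inv_word (he : e + 3 ≤ m) (z' : Fin r → Rˣ) :
    (C.hB e z')⁻¹ = C.φ (e + 2) * (C.hQ2 e z').1 * (C.φ (e + 3))⁻¹ := by
  simp only [hB, hQ2]
  have h := C.step (e + 1) (by omega)
  show _ = C.φ (e + 2) * ((C.β (e + 2)).1⁻¹ * tor (rv z')⁻¹) * (C.φ (e + 3))⁻¹
  have h3 : C.φ (e + 2) = C.φ (e + 1) * w0 * (C.β (e + 2)).1 := h
  rw [h3, tor_inv, ← w0_conj_tor]
  group

/-- The triangular part of the commutator of a handle. -/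
def hQ (e : ℕ) (z z' : Fin r → Rˣ) : Bp R r :=
  C.hQ4 e z' * C.hQ3 e z * C.hQ2 e z' * C.hQ1 e z

/-- The commutator word of a handle. -/
def hW (e : ℕ) (z z' : Fin r → Rˣ) : GLr R r :=
  C.hB e z' * (C.hA e z)⁻¹ * (C.hB e z')⁻¹ * C.hA e z

lemma hW_word (he : e + 4 ≤ m) (z z' : Fin r → Rˣ) :
    C.hW e z z' = C.φ (e + 4) * (C.hQ e z z').1 * (C.φ e)⁻¹ := by
  simp only [hW, hQ]
  rw [C.hB_inv_word (by omega), C.hA_inv_word (by omega), C.hB_word he, C.hA_word (by omega)]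
  show _ = C.φ (e + 4) * ((C.hQ4 e z').1 * (C.hQ3 e z).1 * (C.hQ2 e z').1 * (C.hQ1 e z).1) * _
  group

lemma dg_hQ (e : ℕ) (z z' : Fin r → Rˣ) :
    dg (C.hQ e z z') = (dg (C.β (e + 4)))⁻¹ * z' * ((dg (C.β (e + 1)))⁻¹ * (rv z)⁻¹) *
      ((dg (C.β (e + 2)))⁻¹ * (rv z')⁻¹) * ((dg (C.β (e + 3)))⁻¹ * z) := by
  simp only [hQ, hQ1, hQ2, hQ3, hQ4, dg_mul, dg_inv, dg_torB]

end Chain

/-! ### Products -/

/-- The descending product `W (k-1) * ... * W 0`. -/
def prodDown {G : Type*} [Monoid G] (W : ℕ → G) : ℕ → G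
  | 0 => 1
  | k + 1 => W k * prodDown W k

lemma prodDown_telescope {G : Type*} [Group G] (W Q f : ℕ → G) (k : ℕ)
    (h : ∀ j, j < k → W j = f (j + 1) * Q j * (f j)⁻¹) :
    prodDown W k = f k * prodDown Q k * (f 0)⁻¹ := by
  induction k with
  | zero => simp [prodDown]
  | succ k ih =>
    simp only [prodDown]
    rw [ih (fun j hj => h j (by omega)), h k (by omega)]
    group

lemma prod_ofFn_rev {G : Type*} [Monoid G] (W : ℕ → G) (k : ℕ) :
    (List.ofFn fun j : Fin k => W (k - 1 - j)).prod = prodDown W k := by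
  induction k with
  | zero => simp [prodDown]
  | succ k ih =>
    rw [List.ofFn_succ, List.prod_cons]
    simp only [prodDown]
    congr 1
    rw [← ih]
    congr 2
    funext j
    congr 1
    simp
    omega

lemma prodDown_map {G H : Type*} [Monoid G] [Monoid H] (f : G →* H) (W : ℕ → G) (k : ℕ) :
    f (prodDown W k) = prodDown (fun j => f (W j)) k := by
  induction k with
  | zero => simp [prodDown]
  | succ k ih => simp [prodDown, ih]

lemma prodDown_comm {G : Type*} [CommMonoid G] (W : ℕ → G) (k : ℕ) :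
    prodDown W k = ∏ j ∈ Finset.range k, W j := by
  induction k with
  | zero => simp [prodDown]
  | succ k ih => simp [prodDown, ih, Finset.prod_range_succ, mul_comm]

end Vale.Agent.Lib.P002.Surf
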