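import Mathlib
import Vale.Agent.Lib.P002.Surf.Fan

set_option linter.unusedSectionVars false
set_option linter.unusedVariables false
set_option linter.unusedSimpArgs false
set_option linter.unnecessarySeqFocus false

namespace Vale.Agent.Lib.P002.Surf

open Matrix

variable {R : Type*} [CommRing R] {n s g : ℕ}

/-- The input data of the chart: layer parameters, top layers, twists, boundary eigenvalues. -/
structure Inp (R : Type*) [CommRing R] (n s g : ℕ) where
  cl : ℕ → ℕ → ℕ → Rˣ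
  tp : ℕ → ℕ → Rˣ
  zf : ℕ → Fin (n + 1) → Rˣ
  a : ℕ → Fin (n + 2) → Rˣ
  hprod : ∀ k, ∏ i, a k i = 1

/-- The number of sides of the polygon. -/
def mm (s g : ℕ) : ℕ := 2 * s + 4 * g

/-- The parameters of the triangles other than the first. -/
noncomputable def cOf (I : Inp R n s g) (i : ℕ) : ℕ → ℕ → Rˣ :=
  withTop (I.cl i) (if i = 2 then fun _ => 1 else I.tp i) n

lemma exists_T2 (I : Inp R n s g) (i : ℕ) :
    ∃ T : Tri R (n + 2), T.u = UcG (fun l j => ((cOf I i l j : Rˣ) : R)) (n + 1) ∧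
      ∀ k (hk : k < n + 1 + 1), T.b.1 ⟨k, hk⟩ ⟨k, hk⟩ *
        Dm (fun l j => ((cOf I i l j : Rˣ) : R)) (n + 1) k =
        Dm (fun l j => ((cOf I i l j : Rˣ) : R)) (n + 1) (k + 1) :=
  exists_tri (fun l j => ((cOf I i l j : Rˣ) : R)) (fun l j => (cOf I i l j).isUnit) (n + 1)

/-- The triangles other than the first. -/
noncomputable def T2 (I : Inp R n s g) (i : ℕ) : Tri R (n + 2) := (exists_T2 I i).choose

lemma T2_u (I : Inp R n s g) (i : ℕ) :
    (T2 I i).u = UcG (fun l j => ((cOf I i l j : Rˣ) : R)) (n + 1) :=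
  (exists_T2 I i).choose_spec.1

/-- The pivots of a triangle as an element of `Bp`. -/
def Tri.bB {r : ℕ} (T : Tri R r) : Bp R r := ⟨T.b, T.hb⟩

/-- The pivots of the triangles other than the first, with trivial entry at the first. -/
noncomputable def bhat' (I : Inp R n s g) (i : ℕ) : Fin (n + 2) → Rˣ :=
  if 3 ≤ i ∧ i + 1 ≤ mm s g then dg (T2 I (i - 1)).bB else 1

/-- The twist of a spike. -/
def zS (I : Inp R n s g) (bh : ℕ → Fin (n + 2) → Rˣ) (j : ℕ) : Fin (n + 2) → Rˣ :=
  rv (I.a (s - 1 - j) * (bh (2 * j + 1))⁻¹)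

/-- A vector of units with prescribed first entries and prescribed product. -/
def snocZ (t : Fin (n + 1) → Rˣ) (κ : Rˣ) : Fin (n + 2) → Rˣ :=
  Fin.snoc (α := fun _ => Rˣ) t (κ / ∏ i, t i)

lemma prod_snocZ (t : Fin (n + 1) → Rˣ) (κ : Rˣ) : ∏ i, snocZ t κ i = κ := by
  rw [Fin.prod_univ_castSucc]
  simp only [snocZ, Fin.snoc_castSucc, Fin.snoc_last]
  simp

/-- The sign of the reversal. -/
noncomputable def dw (R : Type*) [CommRing R] (n : ℕ) : Rˣ := gdet (w0 : GLr R (n + 2))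

lemma dw_mul_dw : dw R n * dw R n = 1 := by
  simp only [dw]
  rw [← map_mul, w0_mul_w0, map_one]

/-- The side where a handle starts. -/
def eE (s i : ℕ) : ℕ := 2 * s + 4 * i

/-- The twists of a handle. -/
noncomputable def zH (I : Inp R n s g) (i : ℕ) : Fin (n + 2) → Rˣ :=
  snocZ (I.zf (2 * i)) (if eE s i = 0 then 1 else dw R n)

noncomputable def zH' (I : Inp R n s g) (i : ℕ) : Fin (n + 2) → Rˣ :=
  snocZ (I.zf (2 * i + 1)) (dw R n)

/-- Diagonal of a spike word. -/
def dsp (I : Inp R n s g) (bh : ℕ → Fin (n + 2) → Rˣ) (j : ℕ) : Fin (n + 2) → Rˣ :=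
  (bh (2 * j + 2))⁻¹ * zS I bh j

/-- Diagonal of a handle word. -/
noncomputable def dha (I : Inp R n s g) (bh : ℕ → Fin (n + 2) → Rˣ) (i : ℕ) : Fin (n + 2) → Rˣ :=
  (bh (eE s i + 4))⁻¹ * zH' I i * ((bh (eE s i + 1))⁻¹ * (rv (zH I i))⁻¹) *
    ((bh (eE s i + 2))⁻¹ * (rv (zH' I i))⁻¹) * ((bh (eE s i + 3))⁻¹ * zH I i)

/-- Diagonal of the boundary word at the base vertex. -/
noncomputable def DD (I : Inp R n s g) (bh : ℕ → Fin (n + 2) → Rˣ) : Fin (n + 2) → Rˣ :=
  (∏ i ∈ Finset.range g, dha I bh i) * (∏ j ∈ Finset.range s, dsp I bh j)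

lemma DD_split (I : Inp R n s g) (hm : 4 ≤ mm s g) (bh bh' : ℕ → Fin (n + 2) → Rˣ)
    (h : ∀ i, i ≠ 2 → 1 ≤ i → i ≤ mm s g → bh i = bh' i) (h2 : bh' 2 = 1) :
    DD I bh = (bh 2)⁻¹ * DD I bh' := by
  simp only [DD]
  cases s with
  | zero =>
    obtain ⟨g', rfl⟩ : ∃ g', g = g' + 1 := ⟨g - 1, by simp [mm] at hm; omega⟩
    simp only [Finset.range_zero, Finset.prod_empty, mul_one]
    rw [Finset.prod_range_succ', Finset.prod_range_succ']
    have h1 : ∀ i ∈ Finset.range g', dha I bh (i + 1) = dha I bh' (i + 1) := by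
      intro i hi
      have hi' := Finset.mem_range.mp hi
      simp only [dha, eE]
      rw [h _ (by omega) (by omega) (by show _ ≤ 2 * _ + 4 * _; omega), h _ (by omega) (by omega) (by show _ ≤ 2 * _ + 4 * _; omega),
        h _ (by omega) (by omega) (by show _ ≤ 2 * _ + 4 * _; omega), h _ (by omega) (by omega) (by show _ ≤ 2 * _ + 4 * _; omega)]
    rw [Finset.prod_congr rfl h1]
    have h3 : dha I bh 0 = (bh 2)⁻¹ * dha I bh' 0 := by
      simp only [dha, eE, Nat.mul_zero, Nat.add_zero]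
      rw [h 4 (by omega) (by omega) (by show _ ≤ 2 * _ + 4 * _; omega), h 1 (by omega) (by omega) (by show _ ≤ 2 * _ + 4 * _; omega),
        h 3 (by omega) (by omega) (by show _ ≤ 2 * _ + 4 * _; omega), h2]
      simp only [inv_one, one_mul]
      ac_rfl
    rw [h3]
    ac_rfl
  | succ s' =>
    rw [Finset.prod_range_succ' (fun j => dsp I bh j), Finset.prod_range_succ' (fun j => dsp I bh' j)]
    have h1 : ∀ i ∈ Finset.range s', dsp I bh (i + 1) = dsp I bh' (i + 1) := by
      intro i hi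
      have hi' := Finset.mem_range.mp hi
      simp only [dsp, zS]
      rw [h _ (by omega) (by omega) (by show _ ≤ 2 * _ + 4 * _; omega), h _ (by omega) (by omega) (by show _ ≤ 2 * _ + 4 * _; omega)]
    rw [Finset.prod_congr rfl h1]
    have h4 : ∀ i ∈ Finset.range g, dha I bh i = dha I bh' i := by
      intro i hi
      have hi' := Finset.mem_range.mp hi
      simp only [dha, eE]
      rw [h _ (by omega) (by omega) (by show _ ≤ 2 * _ + 4 * _; omega), h _ (by omega) (by omega) (by show _ ≤ 2 * _ + 4 * _; omega),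
        h _ (by omega) (by omega) (by show _ ≤ 2 * _ + 4 * _; omega), h _ (by omega) (by omega) (by show _ ≤ 2 * _ + 4 * _; omega)]
    rw [Finset.prod_congr rfl h4]
    have h3 : dsp I bh 0 = (bh 2)⁻¹ * dsp I bh' 0 := by
      simp only [dsp, zS, Nat.mul_zero, Nat.add_zero, Nat.zero_add]
      rw [h 1 (by omega) (by omega) (by show _ ≤ 2 * _ + 4 * _; omega), h2]
      simp
    rw [h3]
    ac_rfl

/-- The prescribed pivots of the first triangle. -/
noncomputable def tauV (I : Inp R n s g) : Fin (n + 2) → Rˣ := DD I (bhat' I) * I.a s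

noncomputable def tauN (I : Inp R n s g) (k : ℕ) : Rˣ :=
  if h : k < n + 2 then tauV I ⟨k, h⟩ else 1

lemma exists_T1 (I : Inp R n s g) :
    ∃ T : Tri R (n + 2), T.u = UcG (fun l j => ((withTop (I.cl 1) (topLayer (I.cl 1) (tauN I) n) n l j : Rˣ) : R))
        (n + 1) ∧
      ∀ k (hk : k < n + 1), T.b.1 ⟨k, by omega⟩ ⟨k, by omega⟩ = tauN I k :=
  exists_tri_prescribed (I.cl 1) (tauN I) n

/-- The first triangle. -/
noncomputable def T1 (I : Inp R n s g) : Tri R (n + 2) := (exists_T1 I).choose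

lemma T1_u (I : Inp R n s g) :
    (T1 I).u = UcG (fun l j => ((withTop (I.cl 1) (topLayer (I.cl 1) (tauN I) n) n l j : Rˣ) : R))
      (n + 1) :=
  (exists_T1 I).choose_spec.1

lemma T1_piv (I : Inp R n s g) (k : ℕ) (hk : k < n + 1) :
    (T1 I).b.1 ⟨k, by omega⟩ ⟨k, by omega⟩ = tauN I k :=
  (exists_T1 I).choose_spec.2 k hk

/-- All the triangles. -/
noncomputable def TT (I : Inp R n s g) (i : ℕ) : Tri R (n + 2) :=
  if i = 1 then T1 I else T2 I i

/-- The fan of the chart. -/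
noncomputable def theFan (I : Inp R n s g) (hm : 4 ≤ mm s g) : Fan R (n + 2) (mm s g) where
  uu := fun i => (TT I i).u
  hh := fun i => if i = mm s g - 1 then 1 else (TT I i).h
  bb := fun i => if i = 0 then 1 else (TT I i).b
  huu := fun i => (TT I i).hu
  hhh := fun i => by
    split_ifs
    · exact one_mem _
    · exact (TT I i).hh
  hbb := fun i => by
    split_ifs
    · exact one_mem _
    · exact (TT I i).hb
  rel := fun i h1 h2 => by
    have h3 : i ≠ mm s g - 1 := by omega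
    have h4 : i ≠ 0 := by omega
    simp only [h3, h4, if_false]
    exact (TT I i).rel
  bb0 := by simp
  hhlast := by simp

/-- The chain of the chart. -/
noncomputable def theChain (I : Inp R n s g) (hm : 4 ≤ mm s g) : Chain R (n + 2) (mm s g) :=
  (theFan I hm).chain (by omega)

/-- The table of diagonals of the chain. -/
noncomputable def bhat (I : Inp R n s g) (hm : 4 ≤ mm s g) (i : ℕ) : Fin (n + 2) → Rˣ :=
  dg ((theChain I hm).β i)

lemma bhat_one (I : Inp R n s g) (hm : 4 ≤ mm s g) : bhat I hm 1 = 1 := by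
  simp only [bhat, theChain, Fan.chain]
  have h : ((theFan I hm).bb (1 - 1)) ∈ Bp R (n + 2) := (theFan I hm).hbb _
  rw [Fan.dg_beta_mid _ (by omega) h]
  have h1 : (⟨(theFan I hm).bb (1 - 1), h⟩ : Bp R (n + 2)) = 1 := by
    apply Subtype.ext
    show (theFan I hm).bb 0 = 1
    exact (theFan I hm).bb0
  rw [h1, dg_one]

lemma bhat_m (I : Inp R n s g) (hm : 4 ≤ mm s g) : bhat I hm (mm s g) = 1 := by
  simp only [bhat, theChain, Fan.chain]
  exact Fan.dg_beta_m _

lemma bhat_two (I : Inp R n s g) (hm : 4 ≤ mm s g) : bhat I hm 2 = dg (T1 I).bB := by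
  simp only [bhat, theChain, Fan.chain]
  have h : ((theFan I hm).bb (2 - 1)) ∈ Bp R (n + 2) := (theFan I hm).hbb _
  rw [Fan.dg_beta_mid _ (by omega) h]
  congr 1

lemma bhat_mid (I : Inp R n s g) (hm : 4 ≤ mm s g) {i : ℕ} (h3 : 3 ≤ i) (h4 : i + 1 ≤ mm s g) :
    bhat I hm i = dg (T2 I (i - 1)).bB := by
  simp only [bhat, theChain, Fan.chain]
  have h : ((theFan I hm).bb (i - 1)) ∈ Bp R (n + 2) := (theFan I hm).hbb _
  rw [Fan.dg_beta_mid _ (by omega) h]
  congr 1
  apply Subtype.ext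
  show (theFan I hm).bb (i - 1) = (T2 I (i - 1)).b
  have h5 : i - 1 ≠ 0 := by omega
  have h6 : i - 1 ≠ 1 := by omega
  simp [theFan, TT, h5, h6]

lemma bhat_eq_bhat' (I : Inp R n s g) (hm : 4 ≤ mm s g) (i : ℕ) (h2 : i ≠ 2) (h1 : 1 ≤ i)
    (hi : i ≤ mm s g) : bhat I hm i = bhat' I i := by
  by_cases hi1 : i = 1
  · subst hi1
    rw [bhat_one]
    simp [bhat']
  by_cases him : i = mm s g
  · subst him
    rw [bhat_m]
    simp [bhat']
  · rw [bhat_mid I hm (by omega) (by omega)]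
    simp only [bhat']
    rw [if_pos ⟨by omega, by omega⟩]

lemma bhat'_two (I : Inp R n s g) : bhat' I 2 = 1 := by
  simp [bhat']

lemma DD_bhat (I : Inp R n s g) (hm : 4 ≤ mm s g) :
    DD I (bhat I hm) = (bhat I hm 2)⁻¹ * DD I (bhat' I) :=
  DD_split I hm _ _ (fun i h2 h1 hi => bhat_eq_bhat' I hm i h2 h1 hi) (bhat'_two I)

lemma DD_coord (I : Inp R n s g) (hm : 4 ≤ mm s g) (k : Fin (n + 1)) :
    DD I (bhat I hm) k.castSucc = (I.a s k.castSucc)⁻¹ := by
  rw [DD_bhat, bhat_two]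
  have h1 : dg (T1 I).bB k.castSucc = tauV I k.castSucc := by
    apply Units.ext
    rw [dg_val]
    show (T1 I).b.1 k.castSucc k.castSucc = _
    have := T1_piv I k.val k.isLt
    have e : (⟨k.val, by omega⟩ : Fin (n + 2)) = k.castSucc := rfl
    rw [e] at this
    rw [this]
    simp only [tauN]
    rw [dif_pos (by omega)]
    rfl
  simp only [Pi.mul_apply, Pi.inv_apply]
  rw [h1]
  simp only [tauV, Pi.mul_apply]
  simp

/-! ### The words of the chart -/

section words

variable (I : Inp R n s g) (hm : 4 ≤ mm s g)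

/-- The spike twist on the actual table. -/
noncomputable def Zs (j : ℕ) : Fin (n + 2) → Rˣ := zS I (bhat I hm) j

/-- The spike words. -/
noncomputable def sWd (j : ℕ) : GLr R (n + 2) := (theChain I hm).sW (2 * j) (Zs I hm j)

noncomputable def sQd (j : ℕ) : Bp R (n + 2) := (theChain I hm).sQ (2 * j) (Zs I hm j)

noncomputable def sBd (j : ℕ) : Bp R (n + 2) := (theChain I hm).sB (2 * j) (Zs I hm j)

/-- The handle generators. -/
noncomputable def xW (i : ℕ) : GLr R (n + 2) := (theChain I hm).hB (eE s i) (zH' I i)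

noncomputable def yW (i : ℕ) : GLr R (n + 2) := ((theChain I hm).hA (eE s i) (zH I i))⁻¹

noncomputable def hWd (i : ℕ) : GLr R (n + 2) := (theChain I hm).hW (eE s i) (zH I i) (zH' I i)

noncomputable def hQd (i : ℕ) : Bp R (n + 2) := (theChain I hm).hQ (eE s i) (zH I i) (zH' I i)

lemma commutator_xy (i : ℕ) : xW I hm i * yW I hm i * (xW I hm i)⁻¹ * (yW I hm i)⁻¹ = hWd I hm i := by
  simp only [xW, yW, hWd, Chain.hW, inv_inv]

lemma dg_sBd (j : ℕ) : dg (sBd I hm j) = I.a (s - 1 - j) := by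
  simp only [sBd, Chain.dg_sB]
  show rv (Zs I hm j) * bhat I hm (2 * j + 1) = _
  simp only [Zs, zS, rv_rv]
  simp

lemma dg_sQd (j : ℕ) : dg (sQd I hm j) = dsp I (bhat I hm) j := by
  simp only [sQd, Chain.dg_sQ]
  rfl

lemma dg_hQd (i : ℕ) : dg (hQd I hm i) = dha I (bhat I hm) i := by
  simp only [hQd, Chain.dg_hQ]
  rfl

lemma sWd_conj (j : ℕ) (hj : j < s) :
    sWd I hm j = (theChain I hm).φ (2 * j + 1) * (sBd I hm j).1 * ((theChain I hm).φ (2 * j + 1))⁻¹ :=
  Chain.sW_conj _ (by show _ ≤ 2 * _ + 4 * _; omega) _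

lemma sWd_word (j : ℕ) (hj : j < s) :
    sWd I hm j = (theChain I hm).φ (2 * j + 2) * (sQd I hm j).1 * ((theChain I hm).φ (2 * j))⁻¹ :=
  Chain.sW_word _ (by show _ ≤ 2 * _ + 4 * _; omega) _

lemma hWd_word (i : ℕ) (hi : i < g) :
    hWd I hm i = (theChain I hm).φ (eE s i + 4) * (hQd I hm i).1 * ((theChain I hm).φ (eE s i))⁻¹ :=
  Chain.hW_word _ (by show 2 * _ + 4 * _ + 4 ≤ 2 * _ + 4 * _; omega) _ _

/-- The product of the words of the spikes. -/
lemma prodDown_sWd : prodDown (sWd I hm) s =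
    (theChain I hm).φ (2 * s) * (prodDown (sQd I hm) s).1 := by
  have h1 := prodDown_telescope (sWd I hm) (fun j => (sQd I hm j).1)
    (fun j => (theChain I hm).φ (2 * j)) s (fun j hj => by
      rw [sWd_word I hm j hj]
      rfl)
  have h2 : prodDown (fun j => ((sQd I hm j).1 : GLr R (n + 2))) s = (prodDown (sQd I hm) s).1 :=
    (prodDown_map (Bp R (n + 2)).subtype (sQd I hm) s).symm
  rw [h1, h2]
  simp [(theChain I hm).start]

/-- The product of the words of the handles. -/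
lemma prodDown_hWd : prodDown (hWd I hm) g =
    (prodDown (hQd I hm) g).1 * ((theChain I hm).φ (2 * s))⁻¹ := by
  have h1 := prodDown_telescope (hWd I hm) (fun j => (hQd I hm j).1)
    (fun j => (theChain I hm).φ (eE s j)) g (fun j hj => by
      rw [hWd_word I hm j hj]
      have : eE s (j + 1) = eE s j + 4 := by simp [eE]; ring
      rw [this])
  have h2 : prodDown (fun j => ((hQd I hm j).1 : GLr R (n + 2))) g = (prodDown (hQd I hm) g).1 :=
    (prodDown_map (Bp R (n + 2)).subtype (hQd I hm) g).symm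
  have h3 : (theChain I hm).φ (eE s g) = 1 := (theChain I hm).stop
  have h4 : eE s 0 = 2 * s := by simp [eE]
  rw [h1, h2, h3, h4, one_mul]

/-- The element of `Bp` given by the word around the base vertex. -/
noncomputable def HH : Bp R (n + 2) := prodDown (hQd I hm) g * prodDown (sQd I hm) s

lemma HH_word : prodDown (hWd I hm) g * prodDown (sWd I hm) s = (HH I hm).1 := by
  rw [prodDown_hWd, prodDown_sWd]
  simp only [HH, Subgroup.coe_mul]
  group

lemma dg_prodDown (Q : ℕ → Bp R (n + 2)) (k : ℕ) :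
    dg (prodDown Q k) = ∏ j ∈ Finset.range k, dg (Q j) := by
  have := prodDown_map (dgHom (R := R) (r := n + 2)) Q k
  rw [prodDown_comm] at this
  exact this

lemma dg_HH : dg (HH I hm) = DD I (bhat I hm) := by
  simp only [HH, dg_mul, dg_prodDown, DD]
  congr 1
  · apply Finset.prod_congr rfl
    intro i _
    exact dg_hQd I hm i
  · apply Finset.prod_congr rfl
    intro i _
    exact dg_sQd I hm i

end words

/-! ### Determinants -/

lemma gdet_Bp {r : ℕ} (b : Bp R r) : gdet b.1 = ∏ k, dg b k := by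
  apply Units.ext
  rw [gdet_val, Units.coe_prod]
  rw [det_of_UT b.2]
  rfl

lemma gdet_Up {r : ℕ} {g : GLr R r} (h : g ∈ Up R r) : gdet g = 1 := by
  apply Units.ext
  rw [gdet_val, det_of_UT h.1]
  simp [h.2]

lemma gdet_Um {r : ℕ} {g : GLr R r} (h : g ∈ Um R r) : gdet g = 1 := by
  apply Units.ext
  rw [gdet_val, det_of_LT h.1]
  simp [h.2]

lemma gdet_tor {r : ℕ} (z : Fin r → Rˣ) : gdet (tor z) = ∏ k, z k := by
  have := gdet_Bp (torB z)
  rw [dg_torB] at this
  exact this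

lemma gdet_phi_mid {r m : ℕ} (F : Fan R r m) {i : ℕ} (h0 : i ≠ 0) (hm : i ≠ m) :
    gdet (F.phi i) = gdet (w0 : GLr R r) := by
  rw [F.phi_mid h0 hm, map_mul, map_mul, gdet_Up (F.GG_mem i), gdet_Um (F.hhh i), one_mul, one_mul]

section dets

variable (I : Inp R n s g) (hm : 4 ≤ mm s g)

lemma gdet_chain_mid {i : ℕ} (h0 : i ≠ 0) (hm' : i ≠ mm s g) :
    gdet ((theChain I hm).φ i) = dw R n :=
  gdet_phi_mid (theFan I hm) h0 hm'

lemma gdet_chain_zero : gdet ((theChain I hm).φ 0) = 1 := by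
  rw [(theChain I hm).start, map_one]

lemma gdet_sWd (j : ℕ) (hj : j < s) : gdet (sWd I hm j) = 1 := by
  rw [sWd_conj I hm j hj, map_mul, map_mul, map_inv, gdet_Bp, dg_sBd, I.hprod]
  simp

lemma gdet_xW (i : ℕ) (hi : i < g) : gdet (xW I hm i) = 1 := by
  have h1 : eE s i + 3 ≠ mm s g := by show 2 * _ + 4 * _ + 3 ≠ 2 * _ + 4 * _; omega
  have h2 : eE s i + 1 ≠ mm s g := by show 2 * _ + 4 * _ + 1 ≠ 2 * _ + 4 * _; omega
  simp only [xW, Chain.hB, map_mul, map_inv]
  rw [gdet_chain_mid I hm (by omega) h1, gdet_chain_mid I hm (by omega) h2, gdet_tor, zH', prod_snocZ]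
  show dw R n * dw R n * dw R n * (dw R n)⁻¹ = 1
  rw [dw_mul_dw]
  simp

lemma gdet_yW (i : ℕ) (hi : i < g) : gdet (yW I hm i) = 1 := by
  have h1 : eE s i + 2 ≠ mm s g := by show 2 * _ + 4 * _ + 2 ≠ 2 * _ + 4 * _; omega
  simp only [yW, Chain.hA, map_mul, map_inv]
  rw [gdet_chain_mid I hm (by omega) h1, gdet_tor, zH, prod_snocZ]
  by_cases h0 : eE s i = 0
  · rw [h0, gdet_chain_zero, if_pos rfl]
    have : gdet (w0 : GLr R (n + 2)) = dw R n := rfl
    rw [this, dw_mul_dw]
    simp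
  · have h3 : eE s i ≠ mm s g := by show 2 * _ + 4 * _ ≠ 2 * _ + 4 * _; omega
    rw [gdet_chain_mid I hm h0 h3, if_neg h0]
    have : gdet (w0 : GLr R (n + 2)) = dw R n := rfl
    rw [this, dw_mul_dw]
    simp

lemma gdet_hWd (i : ℕ) : gdet (hWd I hm i) = 1 := by
  simp only [hWd, Chain.hW, map_mul, map_inv]
  generalize gdet ((theChain I hm).hB (eE s i) (zH' I i)) = x
  generalize gdet ((theChain I hm).hA (eE s i) (zH I i)) = y
  calc x * y⁻¹ * x⁻¹ * y = (x * x⁻¹) * (y⁻¹ * y) := by ac_rfl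
    _ = 1 := by simp

lemma gdet_prodDown_one {W : ℕ → GLr R (n + 2)} {k : ℕ} (h : ∀ j, j < k → gdet (W j) = 1) :
    gdet (prodDown W k) = 1 := by
  rw [prodDown_map, prodDown_comm]
  exact Finset.prod_eq_one fun j hj => h j (Finset.mem_range.mp hj)

lemma prod_DD : ∏ k, DD I (bhat I hm) k = 1 := by
  rw [← dg_HH, ← gdet_Bp, ← HH_word, map_mul, gdet_prodDown_one (fun j _ => gdet_hWd I hm j),
    gdet_prodDown_one (fun j hj => gdet_sWd I hm j hj), one_mul]

/-- The diagonal of the base word is the inverse of the prescribed one. -/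
lemma DD_eq : DD I (bhat I hm) = (I.a s)⁻¹ := by
  funext k
  induction k using Fin.lastCases with
  | cast k => exact DD_coord I hm k
  | last =>
    have h1 := prod_DD I hm
    have h2 := I.hprod s
    rw [Fin.prod_univ_castSucc] at h1 h2
    have h3 : ∏ k : Fin (n + 1), DD I (bhat I hm) k.castSucc =
        (∏ k : Fin (n + 1), I.a s k.castSucc)⁻¹ := by
      rw [← Finset.prod_inv_distrib]
      exact Finset.prod_congr rfl fun k _ => DD_coord I hm k
    rw [h3] at h1
    simp only [Pi.inv_apply]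
    have h4 : I.a s (Fin.last (n + 1)) = (∏ k : Fin (n + 1), I.a s k.castSucc)⁻¹ :=
      eq_inv_of_mul_eq_one_right h2
    rw [h4, inv_inv]
    exact (inv_mul_eq_one.mp h1).symm

end dets

end Vale.Agent.Lib.P002.Surf
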