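import Mathlib
import Vale.Agent.Lib.P002.Surf.Model

set_option linter.unusedSectionVars false
set_option linter.unusedVariables false
set_option linter.unusedSimpArgs false
set_option linter.unnecessarySeqFocus false

namespace Vale.Agent.Lib.P002.Surf

open Matrix

variable {R S : Type*} [CommRing R] [CommRing S] {r m : ℕ}

/-! ### Functoriality of chains and fans -/

/-- The image of a vector of units. -/
def mapZ (f : R →+* S) (z : Fin r → Rˣ) : Fin r → Sˣ := fun i => Units.map (f : R →* S) (z i)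

/-- The image of an upper triangular matrix. -/
def mapB (f : R →+* S) (B : Bp R r) : Bp S r := ⟨GLmap f B.1, GLmap_Bp f B.2⟩

lemma dg_mapB (f : R →+* S) (B : Bp R r) : dg (mapB f B) = mapZ f (dg B) := by
  funext i
  apply Units.ext
  rfl

lemma mapB_mul (f : R →+* S) (B B' : Bp R r) : mapB f (B * B') = mapB f B * mapB f B' := by
  apply Subtype.ext
  simp [mapB]

lemma mapB_torB (f : R →+* S) (z : Fin r → Rˣ) : mapB f (torB z) = torB (mapZ f z) := by
  apply Subtype.ext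
  simp only [mapB, torB, GLmap_tor]
  rfl

lemma mapZ_rv (f : R →+* S) (z : Fin r → Rˣ) : mapZ f (rv z) = rv (mapZ f z) := rfl

namespace Chain

/-- The image of a chain. -/
def map (f : R →+* S) (C : Chain R r m) : Chain S r m where
  φ := fun i => GLmap f (C.φ i)
  β := fun i => mapB f (C.β i)
  step := fun i hi => by
    rw [C.step i hi, map_mul, map_mul, GLmap_w0]
    rfl
  start := by rw [C.start, map_one]
  stop := by rw [C.stop, map_one]

lemma map_sW (f : R →+* S) (C : Chain R r m) (i : ℕ) (z : Fin r → Rˣ) :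
    GLmap f (C.sW i z) = (C.map f).sW i (mapZ f z) := by
  simp only [sW, map_mul, map_inv, GLmap_w0, GLmap_tor]
  rfl

lemma map_hA (f : R →+* S) (C : Chain R r m) (i : ℕ) (z : Fin r → Rˣ) :
    GLmap f (C.hA i z) = (C.map f).hA i (mapZ f z) := by
  simp only [hA, map_mul, map_inv, GLmap_w0, GLmap_tor]
  rfl

lemma map_hB (f : R →+* S) (C : Chain R r m) (i : ℕ) (z : Fin r → Rˣ) :
    GLmap f (C.hB i z) = (C.map f).hB i (mapZ f z) := by
  simp only [hB, map_mul, map_inv, GLmap_w0, GLmap_tor]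
  rfl

lemma map_sB (f : R →+* S) (C : Chain R r m) (i : ℕ) (z : Fin r → Rˣ) :
    (C.map f).sB i (mapZ f z) = mapB f (C.sB i z) := by
  simp only [sB, mapB_mul, mapB_torB]
  rfl

end Chain

namespace Fan

/-- The image of a fan. -/
def map (f : R →+* S) (F : Fan R r m) : Fan S r m where
  uu := fun i => GLmap f (F.uu i)
  hh := fun i => GLmap f (F.hh i)
  bb := fun i => GLmap f (F.bb i)
  huu := fun i => GLmap_Up f (F.huu i)
  hhh := fun i => GLmap_Um f (F.hhh i)
  hbb := fun i => GLmap_Bp f (F.hbb i)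
  rel := fun i h1 h2 => by
    rw [← map_mul, ← F.rel i h1 h2, map_mul, GLmap_w0]
  bb0 := by rw [F.bb0, map_one]
  hhlast := by rw [F.hhlast, map_one]

lemma map_GG (f : R →+* S) (F : Fan R r m) : ∀ i, (F.map f).GG i = GLmap f (F.GG i)
  | 0 => by simp [GG]
  | 1 => by simp [GG]
  | i + 2 => by
    show (F.map f).GG (i + 1) * (F.map f).uu (i + 1) = GLmap f (F.GG (i + 1) * F.uu (i + 1))
    rw [map_mul, map_GG f F (i + 1)]
    rfl

lemma map_phi (f : R →+* S) (F : Fan R r m) (i : ℕ) : (F.map f).phi i = GLmap f (F.phi i) := by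
  by_cases h : i = 0 ∨ i = m
  · simp [phi, h]
  · simp only [phi, h, if_false, map_mul, GLmap_w0, map_GG]
    rfl

lemma map_beta (f : R →+* S) (F : Fan R r m) (i : ℕ) : (F.map f).beta i = mapB f (F.beta i) := by
  apply Subtype.ext
  by_cases h : i = m
  · subst h
    rw [beta_m]
    show _ = GLmap f (F.beta i).1
    rw [beta_m, map_inv, map_GG]
  · rw [beta_mid _ h]
    show _ = GLmap f (F.beta i).1
    rw [beta_mid _ h]
    simp only [map_mul, GLmap_w0]
    rfl

lemma map_chain (f : R →+* S) (F : Fan R r m) (hm : 2 ≤ m) :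
    (F.map f).chain hm = (F.chain hm).map f := by
  have h1 : ((F.map f).chain hm).φ = ((F.chain hm).map f).φ := funext fun i => map_phi f F i
  have h2 : ((F.map f).chain hm).β = ((F.chain hm).map f).β := funext fun i => map_beta f F i
  cases hA : (F.map f).chain hm
  cases hB : (F.chain hm).map f
  simp only [hA, hB] at h1 h2
  subst h1 h2
  rfl

end Fan

/-! ### Rigidity -/

section rigid


/-- An intertwiner of two triangular matrices with the same simple spectrum is triangular. -/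
lemma UT_of_intertwine {X B B' : Matrix (Fin r) (Fin r) ℂ} (hB : UT B) (hB' : UT B')
    (d : Fin r → ℂ) (hd : Function.Injective d) (h1 : ∀ i, B i i = d i) (h2 : ∀ i, B' i i = d i)
    (h : X * B = B' * X) : UT X := by
  have key : ∀ k : ℕ, ∀ i j : Fin r, j < i → r ≤ (i.val - j.val) + k → X i j = 0 := by
    intro k
    induction k with
    | zero =>
      intro i j _ hk
      have := i.isLt
      omega
    | succ k ih =>
      intro i j hij hk
      have hij' : j.val < i.val := hij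
      have e := congrFun (congrFun h i) j
      rw [Matrix.mul_apply, Matrix.mul_apply, Finset.sum_eq_single j, Finset.sum_eq_single i] at e
      · rw [h1, h2] at e
        have hne : d j - d i ≠ 0 := sub_ne_zero.mpr fun h' => (ne_of_lt hij) (hd h')
        have : X i j * (d j - d i) = 0 := by linear_combination e
        exact (mul_eq_zero.mp this).resolve_right hne
      · intro l _ hl
        rcases lt_or_gt_of_ne hl with hl' | hl'
        · rw [hB' i l hl', zero_mul]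
        · have hl'' : i.val < l.val := hl'
          rw [ih l j (lt_trans hij hl') (by omega), mul_zero]
      · simp
      · intro l _ hl
        rcases lt_or_gt_of_ne hl with hl' | hl'
        · have hl'' : l.val < j.val := hl'
          rw [ih i l (lt_trans hl' hij) (by omega), zero_mul]
        · rw [hB l j hl', mul_zero]
      · simp
  intro i j hij
  exact key r i j hij (by omega)

variable (C C' : Chain ℂ r m) (P : GLr ℂ r)

/-- The comparison of the two frames. -/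
def Dfr (x : ℕ) : GLr ℂ r := (C'.φ x)⁻¹ * P * C.φ x

lemma Dfr_zero : Dfr C C' P 0 = P := by
  simp [Dfr, C.start, C'.start]

lemma Dfr_step {x : ℕ} (hx : x < m) :
    Dfr C C' P (x + 1) = ((C'.β (x + 1)).1)⁻¹ * (w0 * Dfr C C' P x * w0) * (C.β (x + 1)).1 := by
  simp only [Dfr]
  rw [C.step x hx, C'.step x hx]
  have h : (w0⁻¹ : GLr ℂ r) = w0 := w0_inv
  calc (C'.φ x * w0 * (C'.β (x + 1)).1)⁻¹ * P * (C.φ x * w0 * (C.β (x + 1)).1)
      = ((C'.β (x + 1)).1)⁻¹ * w0⁻¹ * (C'.φ x)⁻¹ * P * (C.φ x * w0 * (C.β (x + 1)).1) := by group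
    _ = _ := by rw [h]; group

/-- The comparison propagates along a word. -/
lemma Dfr_transport {W W' : GLr ℂ r} {x x' : ℕ} {Q Q' : Bp ℂ r}
    (hW : W = C.φ x' * Q.1 * (C.φ x)⁻¹) (hW' : W' = C'.φ x' * Q'.1 * (C'.φ x)⁻¹)
    (hP : W' = P * W * P⁻¹) (hD : Dfr C C' P x ∈ Bp ℂ r) : Dfr C C' P x' ∈ Bp ℂ r := by
  have h : Dfr C C' P x' = Q'.1 * Dfr C C' P x * (Q.1)⁻¹ := by
    simp only [Dfr]
    have h1 : Q'.1 = (C'.φ x')⁻¹ * W' * C'.φ x := by rw [hW']; group
    rw [h1, hP, hW]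
    group
  rw [h]
  exact mul_mem (mul_mem Q'.2 hD) (inv_mem Q.2)

/-- The comparison at a tip. -/
lemma Dfr_tip {W W' : GLr ℂ r} {x : ℕ} {B B' : Bp ℂ r}
    (hW : W = C.φ x * B.1 * (C.φ x)⁻¹) (hW' : W' = C'.φ x * B'.1 * (C'.φ x)⁻¹)
    (hP : W' = P * W * P⁻¹) (hdg : dg B = dg B')
    (hd : Function.Injective fun i => ((dg B i : ℂˣ) : ℂ)) : Dfr C C' P x ∈ Bp ℂ r := by
  have h : (Dfr C C' P x).1 * B.1.1 = B'.1.1 * (Dfr C C' P x).1 := by
    have h1 : Dfr C C' P x * B.1 = B'.1 * Dfr C C' P x := by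
      simp only [Dfr]
      have h2 : B'.1 = (C'.φ x)⁻¹ * W' * C'.φ x := by rw [hW']; group
      rw [h2, hP, hW]
      group
    exact congrArg (fun g : GLr ℂ r => g.1) h1
  refine UT_of_intertwine B.2 B'.2 _ hd (fun i => rfl) (fun i => ?_) h
  rw [hdg]
  rfl

section walk

variable {s g : ℕ} (hmm : m = 2 * s + 4 * g)
  (zS zS' zA zA' zB zB' : ℕ → Fin r → ℂˣ)
  (hS : ∀ j, j < s → C'.sW (2 * j) (zS' j) = P * C.sW (2 * j) (zS j) * P⁻¹)
  (hSd : ∀ j, j < s → dg (C.sB (2 * j) (zS j)) = dg (C'.sB (2 * j) (zS' j)))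
  (hSi : ∀ j, j < s → Function.Injective fun i => ((dg (C.sB (2 * j) (zS j)) i : ℂˣ) : ℂ))
  (hA : ∀ i, i < g → C'.hA (eE s i) (zA' i) = P * C.hA (eE s i) (zA i) * P⁻¹)
  (hB : ∀ i, i < g → C'.hB (eE s i) (zB' i) = P * C.hB (eE s i) (zB i) * P⁻¹)
  (hP : P ∈ Bp ℂ r)

include hmm hS hSd hSi hA hB hP

lemma Dfr_even (j : ℕ) (hj : j ≤ s) : Dfr C C' P (2 * j) ∈ Bp ℂ r := by
  induction j with
  | zero => simpa [Dfr_zero] using hP
  | succ j ih =>
    have h1 : 2 * j + 2 ≤ m := by omega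
    exact Dfr_transport C C' P (C.sW_word h1 (zS j)) (C'.sW_word h1 (zS' j)) (hS j (by omega))
      (ih (by omega))

lemma Dfr_odd (j : ℕ) (hj : j < s) : Dfr C C' P (2 * j + 1) ∈ Bp ℂ r := by
  have h1 : 2 * j + 1 ≤ m := by omega
  exact Dfr_tip C C' P (C.sW_conj h1 (zS j)) (C'.sW_conj h1 (zS' j)) (hS j hj) (hSd j hj) (hSi j hj)

lemma Dfr_handle (i : ℕ) (hi : i ≤ g) : Dfr C C' P (eE s i) ∈ Bp ℂ r := by
  induction i with
  | zero =>
    have := Dfr_even C C' P hmm zS zS' zA zA' zB zB' hS hSd hSi hA hB hP s le_rfl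
    simpa [eE] using this
  | succ i ih =>
    have hi' : i < g := by omega
    have he : eE s i + 4 ≤ m := by simp only [eE]; omega
    have hD0 := ih (by omega)
    have hD3 := Dfr_transport C C' P (C.hA_word (by omega) (zA i)) (C'.hA_word (by omega) (zA' i))
      (hA i hi') hD0
    have hB' : (C'.hB (eE s i) (zB' i))⁻¹ = P * (C.hB (eE s i) (zB i))⁻¹ * P⁻¹ := by
      rw [hB i hi']; group
    have hA' : (C'.hA (eE s i) (zA' i))⁻¹ = P * (C.hA (eE s i) (zA i))⁻¹ * P⁻¹ := by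
      rw [hA i hi']; group
    have hD2 := Dfr_transport C C' P (C.hB_inv_word (by omega) (zB i))
      (C'.hB_inv_word (by omega) (zB' i)) hB' hD3
    have hD1 := Dfr_transport C C' P (C.hA_inv_word (by omega) (zA i))
      (C'.hA_inv_word (by omega) (zA' i)) hA' hD2
    have hD4 := Dfr_transport C C' P (C.hB_word (by omega) (zB i))
      (C'.hB_word (by omega) (zB' i)) (hB i hi') hD1
    have e : eE s (i + 1) = eE s i + 4 := by simp [eE]; ring
    rw [e]
    exact hD4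

lemma Dfr_handle_mid (i : ℕ) (hi : i < g) :
    Dfr C C' P (eE s i + 1) ∈ Bp ℂ r ∧ Dfr C C' P (eE s i + 2) ∈ Bp ℂ r ∧
      Dfr C C' P (eE s i + 3) ∈ Bp ℂ r := by
  have he : eE s i + 4 ≤ m := by simp only [eE]; omega
  have hD0 := Dfr_handle C C' P hmm zS zS' zA zA' zB zB' hS hSd hSi hA hB hP i hi.le
  have hD3 := Dfr_transport C C' P (C.hA_word (by omega) (zA i)) (C'.hA_word (by omega) (zA' i))
    (hA i hi) hD0
  have hB' : (C'.hB (eE s i) (zB' i))⁻¹ = P * (C.hB (eE s i) (zB i))⁻¹ * P⁻¹ := by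
    rw [hB i hi]; group
  have hA' : (C'.hA (eE s i) (zA' i))⁻¹ = P * (C.hA (eE s i) (zA i))⁻¹ * P⁻¹ := by
    rw [hA i hi]; group
  have hD2 := Dfr_transport C C' P (C.hB_inv_word (by omega) (zB i))
    (C'.hB_inv_word (by omega) (zB' i)) hB' hD3
  have hD1 := Dfr_transport C C' P (C.hA_inv_word (by omega) (zA i))
    (C'.hA_inv_word (by omega) (zA' i)) hA' hD2
  exact ⟨hD1, hD2, hD3⟩

/-- All comparisons are upper triangular. -/
theorem Dfr_all (x : ℕ) (hx : x ≤ m) : Dfr C C' P x ∈ Bp ℂ r := by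
  by_cases h : x < 2 * s
  · rcases Nat.even_or_odd' x with ⟨j, rfl | rfl⟩
    · exact Dfr_even C C' P hmm zS zS' zA zA' zB zB' hS hSd hSi hA hB hP j (by omega)
    · exact Dfr_odd C C' P hmm zS zS' zA zA' zB zB' hS hSd hSi hA hB hP j (by omega)
  · obtain ⟨y, rfl⟩ : ∃ y, x = 2 * s + y := ⟨x - 2 * s, by omega⟩
    have hy : y = 4 * (y / 4) + y % 4 := (Nat.div_add_mod y 4).symm
    have hy4 : y % 4 < 4 := Nat.mod_lt _ (by norm_num)
    generalize y / 4 = i at hy
    generalize y % 4 = k at hy hy4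
    subst hy
    have hi : i ≤ g := by omega
    interval_cases k
    · exact Dfr_handle C C' P hmm zS zS' zA zA' zB zB' hS hSd hSi hA hB hP i hi
    · exact (Dfr_handle_mid C C' P hmm zS zS' zA zA' zB zB' hS hSd hSi hA hB hP i (by omega)).1
    · exact (Dfr_handle_mid C C' P hmm zS zS' zA zA' zB zB' hS hSd hSi hA hB hP i (by omega)).2.1
    · exact (Dfr_handle_mid C C' P hmm zS zS' zA zA' zB zB' hS hSd hSi hA hB hP i (by omega)).2.2

end walk

/-- The comparison is diagonal away from the last vertex. -/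
lemma Dfr_mem_Bm (hD : ∀ x, x ≤ m → Dfr C C' P x ∈ Bp ℂ r) {x : ℕ} (hx : x < m) :
    Dfr C C' P x ∈ Bm ℂ r := by
  have h1 : (w0 * Dfr C C' P x * w0 : GLr ℂ r) =
      (C'.β (x + 1)).1 * Dfr C C' P (x + 1) * ((C.β (x + 1)).1)⁻¹ := by
    rw [Dfr_step C C' P hx]
    group
  have h2 : (w0 * Dfr C C' P x * w0 : GLr ℂ r) ∈ Bp ℂ r := by
    rw [h1]
    exact mul_mem (mul_mem (C'.β _).2 (hD _ (by omega))) (inv_mem (C.β _).2)
  have h3 : (w0 * (w0 * Dfr C C' P x * w0) * w0 : GLr ℂ r) = Dfr C C' P x := by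
    have h : (w0 * w0 : GLr ℂ r) = 1 := w0_mul_w0
    calc (w0 * (w0 * Dfr C C' P x * w0) * w0 : GLr ℂ r)
        = (w0 * w0) * Dfr C C' P x * (w0 * w0) := by group
      _ = _ := by rw [h]; group
  rw [← h3]
  exact w0_conj_Bp h2

end rigid

/-! ### Comparing the fans -/

section fans

variable (F F' : Fan ℂ r m) (hm : 2 ≤ m) (P : GLr ℂ r)

lemma dg_Up {g : GLr ℂ r} (h : g ∈ Up ℂ r) : dg ⟨g, Up_le_Bp h⟩ = 1 := by
  funext i
  apply Units.ext
  exact h.2 i

/-- Two diagonal matrices with the same diagonal agree. -/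
lemma eq_of_dg_eq {A B : GLr ℂ r} (hA : A ∈ Bp ℂ r) (hA' : A ∈ Bm ℂ r) (hB : B ∈ Bp ℂ r)
    (hB' : B ∈ Bm ℂ r) (h : dg ⟨A, hA⟩ = dg ⟨B, hB⟩) : A = B := by
  rw [eq_tor_of_mem hA hA', eq_tor_of_mem hB hB', h]

lemma Um_le_Bm : Um ℂ r ≤ Bm ℂ r := fun _ h => h.1

theorem GG_conj (hD : ∀ x, x ≤ m → Dfr (F.chain hm) (F'.chain hm) P x ∈ Bp ℂ r)
    {x : ℕ} (h0 : x ≠ 0) (hx : x < m) :
    F'.GG x = P * F.GG x * P⁻¹ := by
  have hP0 : P ∈ Bp ℂ r := by simpa [Dfr_zero] using hD 0 (by omega)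
  have hP1 : P ∈ Bm ℂ r := by
    simpa [Dfr_zero] using Dfr_mem_Bm (F.chain hm) (F'.chain hm) P hD (x := 0) (by omega)
  have hDx := hD x hx.le
  have hDm := Dfr_mem_Bm (F.chain hm) (F'.chain hm) P hD hx
  let T : GLr ℂ r := (F'.GG x)⁻¹ * P * F.GG x
  have hT : T = F'.hh x * (w0 * Dfr (F.chain hm) (F'.chain hm) P x * w0) * (F.hh x)⁻¹ := by
    simp only [T, Dfr]
    show _ = F'.hh x * (w0 * ((F'.phi x)⁻¹ * P * F.phi x) * w0) * (F.hh x)⁻¹
    rw [F.phi_mid h0 (by omega), F'.phi_mid h0 (by omega)]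
    have h2 : (w0 * w0 : GLr ℂ r) = 1 := w0_mul_w0
    have e1 : (w0 * (F'.GG x * F'.hh x * w0)⁻¹ : GLr ℂ r) = (F'.hh x)⁻¹ * (F'.GG x)⁻¹ := by group
    have e2 : (F.GG x * F.hh x * w0) * w0 = F.GG x * F.hh x := by rw [mul_assoc, h2, mul_one]
    calc (F'.GG x)⁻¹ * P * F.GG x
        = F'.hh x * (((F'.hh x)⁻¹ * (F'.GG x)⁻¹) * P * (F.GG x * F.hh x)) * (F.hh x)⁻¹ := by group
      _ = F'.hh x * ((w0 * (F'.GG x * F'.hh x * w0)⁻¹) * P * ((F.GG x * F.hh x * w0) * w0)) *
            (F.hh x)⁻¹ := by rw [e1, e2]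
      _ = _ := by group
  have hT1 : T ∈ Bp ℂ r :=
    mul_mem (mul_mem (inv_mem (Up_le_Bp (F'.GG_mem x))) hP0) (Up_le_Bp (F.GG_mem x))
  have hT2 : T ∈ Bm ℂ r := by
    rw [hT]
    exact mul_mem (mul_mem (Um_le_Bm (F'.hhh x)) (w0_conj_Bp hDx)) (inv_mem (Um_le_Bm (F.hhh x)))
  have hT3 : T = P := by
    apply eq_of_dg_eq hT1 hT2 hP0 hP1
    have : (⟨T, hT1⟩ : Bp ℂ r) =
        (⟨F'.GG x, Up_le_Bp (F'.GG_mem x)⟩ : Bp ℂ r)⁻¹ * ⟨P, hP0⟩ *
          ⟨F.GG x, Up_le_Bp (F.GG_mem x)⟩ := rfl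
    rw [this, dg_mul, dg_mul, dg_inv, dg_Up (F'.GG_mem x), dg_Up (F.GG_mem x)]
    simp
  have : F'.GG x * T = P * F.GG x := by
    simp only [T]
    group
  rw [hT3] at this
  calc F'.GG x = F'.GG x * P * P⁻¹ := by group
    _ = _ := by rw [this]

theorem uu_conj (hD : ∀ x, x ≤ m → Dfr (F.chain hm) (F'.chain hm) P x ∈ Bp ℂ r)
    {i : ℕ} (h0 : 1 ≤ i) (hi : i + 2 ≤ m) :
    F'.uu i = P * F.uu i * P⁻¹ := by
  obtain ⟨k, rfl⟩ : ∃ k, i = k + 1 := ⟨i - 1, by omega⟩
  have h1 := GG_conj F F' hm P hD (x := k + 1) (by omega) (by omega)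
  have h2 := GG_conj F F' hm P hD (x := k + 2) (by omega) (by omega)
  have h3 : F'.GG (k + 2) = F'.GG (k + 1) * F'.uu (k + 1) := rfl
  have h4 : F.GG (k + 2) = F.GG (k + 1) * F.uu (k + 1) := rfl
  rw [h3, h4, h1] at h2
  have h5 : P * F.GG (k + 1) * P⁻¹ * F'.uu (k + 1) =
      P * F.GG (k + 1) * P⁻¹ * (P * F.uu (k + 1) * P⁻¹) := by
    rw [h2]; group
  exact mul_left_cancel h5

/-- A scalar matrix is central. -/
lemma tor_const_comm (c : ℂˣ) (X : GLr ℂ r) : tor (fun _ => c) * X = X * tor (fun _ => c) := by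
  apply Units.ext
  ext i j
  show (Matrix.diagonal (fun _ : Fin r => ((c : ℂˣ) : ℂ)) * X.1) i j =
    (X.1 * Matrix.diagonal (fun _ : Fin r => ((c : ℂˣ) : ℂ))) i j
  rw [Matrix.diagonal_mul, Matrix.mul_diagonal]
  ring

/-- If the comparison elements are diagonal and `P` is central, the frames agree. -/
theorem phi_eq (hD : ∀ x, x ≤ m → Dfr (F.chain hm) (F'.chain hm) P x ∈ Bp ℂ r)
    (hc : ∀ X : GLr ℂ r, P * X = X * P) (i : ℕ) (hi : i ≤ m) : F'.phi i = F.phi i := by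
  by_cases h0 : i = 0
  · subst h0; rw [F.phi_zero, F'.phi_zero]
  by_cases hl : i = m
  · subst hl; rw [F.phi_m, F'.phi_m]
  have hi' : i < m := by omega
  have hG : F'.GG i = F.GG i := by
    rw [GG_conj F F' hm P hD h0 hi', hc]
    group
  have hP0 : P ∈ Bp ℂ r := by simpa [Dfr_zero] using hD 0 (by omega)
  have hP1 : P ∈ Bm ℂ r := by
    simpa [Dfr_zero] using Dfr_mem_Bm (F.chain hm) (F'.chain hm) P hD (x := 0) (by omega)
  -- the element `E = φ'⁻¹ φ`
  let E : GLr ℂ r := (F'.phi i)⁻¹ * F.phi i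
  have hE : E = w0 * ((F'.hh i)⁻¹ * F.hh i) * w0 := by
    simp only [E]
    rw [F.phi_mid h0 hl, F'.phi_mid h0 hl, hG]
    have h : (w0⁻¹ : GLr ℂ r) = w0 := w0_inv
    calc (F.GG i * F'.hh i * w0)⁻¹ * (F.GG i * F.hh i * w0)
        = w0⁻¹ * ((F'.hh i)⁻¹ * F.hh i) * w0 := by group
      _ = _ := by rw [h]
  have hEU : E ∈ Up ℂ r := by
    rw [hE]
    exact w0_conj_Um (mul_mem (inv_mem (F'.hhh i)) (F.hhh i))
  have hDi : Dfr (F.chain hm) (F'.chain hm) P i = P * E := by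
    simp only [Dfr, E]
    show (F'.phi i)⁻¹ * P * F.phi i = P * ((F'.phi i)⁻¹ * F.phi i)
    calc (F'.phi i)⁻¹ * P * F.phi i = P * (F'.phi i)⁻¹ * F.phi i := by rw [hc]
      _ = _ := mul_assoc _ _ _
  have hEm : E ∈ Bm ℂ r := by
    have h1 : E = P⁻¹ * Dfr (F.chain hm) (F'.chain hm) P i := by
      rw [hDi]; group
    rw [h1]
    exact mul_mem (inv_mem hP1) (Dfr_mem_Bm (F.chain hm) (F'.chain hm) P hD hi')
  have hE1 : E = 1 := by
    apply eq_of_dg_eq (Up_le_Bp hEU) hEm (one_mem _) (one_mem _)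
    rw [dg_Up hEU]
    exact (dg_one).symm
  have : F.phi i = F'.phi i := by
    have h3 : F'.phi i * E = F.phi i := by
      simp only [E]
      exact mul_inv_cancel_left _ _
    rw [← h3, hE1, mul_one]
  exact this.symm

end fans

/-! ### Injectivity of the parametrisation of the unitriangular matrices -/

section uc


lemma Uc_scale (c : ℕ → ℕ → ℂ) (p : ℕ → ℂ) (hp : ∀ k, p k ≠ 0) (m : ℕ) : ∀ i j : ℕ,
    Uc (fun l j => c l j * p j * (p (j + 1))⁻¹) m i j = p i * Uc c m i j * (p j)⁻¹ := by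
  induction m with
  | zero =>
    intro i j
    rw [Uc_zero, Uc_zero]
    by_cases h : i = j
    · subst h
      have := hp i
      simp only [if_true]
      field_simp
    · simp [h]
  | succ m ih =>
    intro i j
    cases j with
    | zero => rw [Uc_succ_zero, Uc_succ_zero, ih]
    | succ j =>
      by_cases hj : j ≤ m
      · rw [Uc_succ_succ _ m i j hj, Uc_succ_succ _ m i j hj, ih, ih]
        have h1 := hp j
        have h2 := hp (j + 1)
        field_simp
      · rw [Uc_succ_big _ m i j (by omega), Uc_succ_big _ m i j (by omega), ih]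

lemma Uc_inj_step {c c' : ℕ → ℕ → ℂ} (m : ℕ) (hc : ∀ j, j ≤ m → c (m + 1) j ≠ 0)
    (h : ∀ i j, i ≤ m + 1 → j ≤ m + 1 → Uc c (m + 1) i j = Uc c' (m + 1) i j) :
    (∀ j, j ≤ m → c (m + 1) j = c' (m + 1) j) ∧
      ∀ i j, i ≤ m + 1 → j ≤ m + 1 → Uc c m i j = Uc c' m i j := by
  have key : ∀ k, k ≤ m + 1 → (∀ i, i ≤ m + 1 → Uc c m i (m + 1 - k) = Uc c' m i (m + 1 - k)) ∧
      (∀ j, m + 1 - k ≤ j → j ≤ m → c (m + 1) j = c' (m + 1) j) := by
    intro k
    induction k with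
    | zero =>
      intro _
      refine ⟨fun i hi => ?_, fun j hj hj' => by omega⟩
      simp only [Nat.sub_zero]
      by_cases hi' : i = m + 1
      · subst hi'
        rw [Uc_self, Uc_self]
      · rw [Uc_beyond c m i (m + 1) (by omega) hi', Uc_beyond c' m i (m + 1) (by omega) hi']
    | succ k ih =>
      intro hk
      obtain ⟨ih1, ih2⟩ := ih (by omega)
      set j := m + 1 - (k + 1) with hj
      have hj1 : m + 1 - k = j + 1 := by omega
      rw [hj1] at ih1 ih2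
      have hjm : j ≤ m := by omega
      have hcj : c (m + 1) j = c' (m + 1) j := by
        have e := h j (j + 1) (by omega) (by omega)
        rw [Uc_succ_succ c m j j hjm, Uc_succ_succ c' m j j hjm, ih1 j (by omega), Uc_self,
          Uc_self, mul_one, mul_one] at e
        exact add_left_cancel e
      refine ⟨fun i hi => ?_, fun l hl hl' => ?_⟩
      · have e := h i (j + 1) hi (by omega)
        rw [Uc_succ_succ c m i j hjm, Uc_succ_succ c' m i j hjm, ih1 i hi, ← hcj] at e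
        exact mul_left_cancel₀ (hc j hjm) (add_left_cancel e)
      · by_cases hlj : l = j
        · rw [hlj]; exact hcj
        · exact ih2 l (by omega) hl'
  refine ⟨fun j hj => (key (m + 1) le_rfl).2 j (by omega) hj, fun i j hi hj => ?_⟩
  have := (key (m + 1 - j) (by omega)).1 i hi
  have e : m + 1 - (m + 1 - j) = j := by omega
  rwa [e] at this

lemma Uc_inj {c c' : ℕ → ℕ → ℂ} (ρ : ℕ) (hc : ∀ l j, c l j ≠ 0)
    (h : ∀ i j, i ≤ ρ → j ≤ ρ → Uc c ρ i j = Uc c' ρ i j) :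
    ∀ l j, 1 ≤ l → l ≤ ρ → j < l → c l j = c' l j := by
  induction ρ with
  | zero =>
    intro l j h1 h2
    omega
  | succ ρ ih =>
    obtain ⟨h1, h2⟩ := Uc_inj_step ρ (fun j _ => hc _ _) h
    intro l j hl hl' hj
    by_cases hl2 : l = ρ + 1
    · subst hl2
      exact h1 j (by omega)
    · exact ih (fun i j hi hj => h2 i j (by omega) (by omega)) l j hl (by omega) hj

end uc

end Vale.Agent.Lib.P002.Surf
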