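import Mathlib

namespace Vale.Agent.Lib.P002.Surf

/-- The special linear group over the complex numbers. -/
abbrev SLr (r : ℕ) := Matrix.SpecialLinearGroup (Fin r) ℂ

/-- The generators `a_i, b_i, c_j` of the fundamental group of a genus `g` surface with `s`
punctures. -/
abbrev Gens (g s : ℕ) := Fin g ⊕ Fin g ⊕ Fin s

/-- Matrices for the generators. -/
abbrev RepData (r g s : ℕ) := Gens g s → SLr r

/-- The surface relation: the product of the commutators `[a_i, b_i]` and of the `c_j` is `1`. -/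
def SurfaceRelation {r g s : ℕ} (ρ : RepData r g s) : Prop :=
  (List.ofFn fun i : Fin g => ρ (Sum.inl i) * ρ (Sum.inr (Sum.inl i)) * (ρ (Sum.inl i))⁻¹ *
      (ρ (Sum.inr (Sum.inl i)))⁻¹).prod *
    (List.ofFn fun j : Fin s => ρ (Sum.inr (Sum.inr j))).prod = 1

/-- `M` is `SL_r(C)`-conjugate to `diag(d)`. -/
def InDiagClass {r : ℕ} (d : Fin r → ℂ) (M : SLr r) : Prop :=
  ∃ h : SLr r, (M : Matrix (Fin r) (Fin r) ℂ) =
    (h : Matrix (Fin r) (Fin r) ℂ) * Matrix.diagonal d * ((h⁻¹ : SLr r) : Matrix (Fin r) (Fin r) ℂ)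

/-- The representations of the surface group whose boundary monodromies lie in the classes of
`diag(a j)`. -/
def RelRep {r g s : ℕ} (a : Fin s → Fin r → ℂ) : Set (RepData r g s) :=
  {ρ | SurfaceRelation ρ ∧ ∀ j, InDiagClass (a j) (ρ (Sum.inr (Sum.inr j)))}

/-- The coordinates of the matrix entries. -/
abbrev Var (r g s : ℕ) := Gens g s × Fin r × Fin r

/-- The matrix entries as a point of affine space. -/
def point {r g s : ℕ} (ρ : RepData r g s) : Var r g s → ℂ :=
  fun p => (ρ p.1 : Matrix (Fin r) (Fin r) ℂ) p.2.1 p.2.2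

/-- All matrix entries lie in the ring of integers of `L`. -/
def IsOLPoint {r g s : ℕ} (L : IntermediateField ℚ ℂ) (ρ : RepData r g s) : Prop :=
  ∀ p : Var r g s, point ρ p ∈ L ∧ IsIntegral ℤ (point ρ p)

/-- Simultaneous conjugacy under `SL_r(C)`. -/
def ConjEquivalent {r g s : ℕ} (ρ ρ' : RepData r g s) : Prop :=
  ∃ h : SLr r, ∀ k, ρ' k = h * ρ k * h⁻¹

/-- A map from an algebraic torus whose matrix entries are Laurent polynomials. -/
def IsLaurentMap {r g s n : ℕ} (χ : (Fin n → ℂˣ) → RepData r g s) : Prop :=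
  ∀ p : Var r g s, ∃ (P : MvPolynomial (Fin n) ℂ) (e : ℕ), ∀ t : Fin n → ℂˣ,
    point (χ t) p * (∏ i, (t i : ℂ)) ^ e = MvPolynomial.eval (fun i => (t i : ℂ)) P

end Vale.Agent.Lib.P002.Surf
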