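import Mathlib
import Vale.Agent.Lib.P002.Surf.Defs
import Vale.Agent.Lib.P002.Surf.Model

set_option linter.unusedSectionVars false
set_option linter.unusedVariables false
set_option linter.unusedSimpArgs false
set_option linter.unnecessarySeqFocus false

namespace Vale.Agent.Lib.P002.Surf

open Matrix Polynomial

lemma exists_diag_conj {r : ℕ} (M : Matrix (Fin r) (Fin r) ℂ) (d : Fin r → ℂ)
    (hd : Function.Injective d) (h : M.charpoly = ∏ i, (X - C (d i))) :
    ∃ Q : GLr ℂ r, M = Q.1 * Matrix.diagonal d * (Q⁻¹).1 := by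
  have h1 : ∀ i, (Matrix.scalar (Fin r) (d i) - M).det = 0 := by
    intro i
    rw [← Matrix.eval_charpoly, h, Polynomial.eval_prod]
    apply Finset.prod_eq_zero (Finset.mem_univ i)
    simp
  have h2 : ∀ i, ∃ v : Fin r → ℂ, v ≠ 0 ∧ (Matrix.scalar (Fin r) (d i) - M).mulVec v = 0 :=
    fun i => Matrix.exists_mulVec_eq_zero_iff.mpr (h1 i)
  choose v hv0 hv using h2
  have hv' : ∀ i, M.mulVec (v i) = d i • v i := by
    intro i
    have := hv i
    rw [Matrix.sub_mulVec, sub_eq_zero] at this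
    rw [← this]
    ext a
    simp [Matrix.scalar_apply, Matrix.mulVec_diagonal]
  have hli : LinearIndependent ℂ v := by
    apply Module.End.eigenvectors_linearIndependent' (Matrix.toLin' M) d hd v
    intro i
    refine ⟨?_, hv0 i⟩
    rw [Module.End.mem_genEigenspace_one]
    simpa using hv' i
  let Q : Matrix (Fin r) (Fin r) ℂ := Matrix.of fun a b => v b a
  have hQ : IsUnit Q := by
    rw [← Matrix.linearIndependent_cols_iff_isUnit]
    exact hli
  obtain ⟨Qu, hQu⟩ := hQ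
  refine ⟨Qu, ?_⟩
  have h3 : M * Q = Q * Matrix.diagonal d := by
    ext a b
    rw [Matrix.mul_diagonal]
    have := congrFun (hv' b) a
    simp only [Pi.smul_apply, smul_eq_mul] at this
    show (M.mulVec (v b)) a = v b a * d b
    rw [this, mul_comm]
  rw [hQu]
  calc M = M * (Q * (Qu⁻¹).1) := by
        rw [← hQu]; simp
    _ = (M * Q) * (Qu⁻¹).1 := by rw [mul_assoc]
    _ = _ := by rw [h3]

/-- Passing from the general linear group to the special linear group. -/
lemma inDiagClass_of_charpoly {n : ℕ} (M : SLr (n + 2)) (d : Fin (n + 2) → ℂ)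
    (hd : Function.Injective d)
    (h : (M : Matrix (Fin (n + 2)) (Fin (n + 2)) ℂ).charpoly = ∏ i, (X - C (d i))) :
    InDiagClass d M := by
  obtain ⟨Q, hQ⟩ := exists_diag_conj _ d hd h
  -- normalise the determinant
  let δ : ℂˣ := gdet Q
  let e : Fin (n + 2) → ℂˣ := Function.update 1 0 δ⁻¹
  have hprod : ∏ i, e i = δ⁻¹ := by
    rw [Fin.prod_univ_succ]
    simp [e, Function.update_of_ne]
  let Q' : GLr ℂ (n + 2) := Q * tor e
  have hdet : gdet Q' = 1 := by
    simp only [Q', map_mul, gdet_tor, hprod, δ]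
    simp
  have hdet' : (Q'.1).det = 1 := by
    have := congrArg (fun x : ℂˣ => (x : ℂ)) hdet
    simpa using this
  let h' : SLr (n + 2) := ⟨Q'.1, hdet'⟩
  refine ⟨h', ?_⟩
  have h4 : ((h'⁻¹ : SLr (n + 2)) : Matrix (Fin (n + 2)) (Fin (n + 2)) ℂ) = (Q'⁻¹).1 := by
    have h5 : (h' : Matrix (Fin (n + 2)) (Fin (n + 2)) ℂ) * ((h'⁻¹ : SLr (n + 2)) :
        Matrix (Fin (n + 2)) (Fin (n + 2)) ℂ) = 1 := by
      rw [← Matrix.SpecialLinearGroup.coe_mul]
      simp
    calc ((h'⁻¹ : SLr (n + 2)) : Matrix (Fin (n + 2)) (Fin (n + 2)) ℂ)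
        = ((Q'⁻¹).1 * Q'.1) * ((h'⁻¹ : SLr (n + 2)) : Matrix (Fin (n + 2)) (Fin (n + 2)) ℂ) := by
          rw [Units.inv_mul, one_mul]
      _ = (Q'⁻¹).1 * ((h' : Matrix (Fin (n + 2)) (Fin (n + 2)) ℂ) *
            ((h'⁻¹ : SLr (n + 2)) : Matrix (Fin (n + 2)) (Fin (n + 2)) ℂ)) := by
          rw [mul_assoc]
      _ = _ := by rw [h5, mul_one]
  rw [h4, hQ]
  show Q.1 * Matrix.diagonal d * (Q⁻¹).1 = Q'.1 * Matrix.diagonal d * (Q'⁻¹).1
  have h6 : (tor e).1 * Matrix.diagonal d = Matrix.diagonal d * (tor e).1 := by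
    show Matrix.diagonal _ * _ = _ * Matrix.diagonal _
    rw [Matrix.diagonal_mul_diagonal, Matrix.diagonal_mul_diagonal]
    congr 1
    funext i
    exact mul_comm _ _
  have h7 : (Q'⁻¹).1 = ((tor e)⁻¹).1 * (Q⁻¹).1 := by
    simp only [Q', _root_.mul_inv_rev]
    rfl
  have h8 : Q'.1 = Q.1 * (tor e).1 := rfl
  rw [h7, h8]
  calc Q.1 * Matrix.diagonal d * (Q⁻¹).1
      = Q.1 * (Matrix.diagonal d * ((tor e).1 * ((tor e)⁻¹).1)) * (Q⁻¹).1 := by
        rw [Units.mul_inv, mul_one]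
    _ = Q.1 * (((tor e).1 * Matrix.diagonal d) * ((tor e)⁻¹).1) * (Q⁻¹).1 := by
        rw [h6]; simp only [mul_assoc]
    _ = _ := by simp only [mul_assoc]

/-- A conjugate of an upper triangular matrix with distinct diagonal entries. -/
lemma inDiagClass_of_conj {n : ℕ} (M : SLr (n + 2)) (P : GLr ℂ (n + 2)) (B : Bp ℂ (n + 2))
    (d : Fin (n + 2) → ℂ) (hd : Function.Injective d) (hB : ∀ i, B.1.1 i i = d i)
    (h : (M : Matrix (Fin (n + 2)) (Fin (n + 2)) ℂ) = P.1 * B.1.1 * (P⁻¹).1) :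
    InDiagClass d M := by
  apply inDiagClass_of_charpoly M d hd
  rw [h]
  have h1 : (P⁻¹).1 = (P.1)⁻¹ := Matrix.coe_units_inv P
  rw [h1, Matrix.charpoly_units_conj, Matrix.charpoly_of_isUpperTriangular _ B.2]
  simp [hB]

end Vale.Agent.Lib.P002.Surf
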