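import Mathlib

set_option linter.unusedSectionVars false
set_option linter.unusedVariables false
set_option linter.unusedSimpArgs false
set_option linter.unnecessarySeqFocus false

namespace Vale.Agent.Lib.P002.Surf

open MvPolynomial

variable {Ι : Type}

/-- The ring of Laurent polynomial functions on a torus, with coefficients in `O`. -/
def LRing (O : Subring ℂ) (Ι : Type) : Subring ((Ι → ℂˣ) → ℂ) :=
  Subring.closure
    (Set.range (fun x : O => fun _ : Ι → ℂˣ => (x : ℂ)) ∪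
      Set.range (fun i : Ι => fun t : Ι → ℂˣ => ((t i : ℂˣ) : ℂ)) ∪
      Set.range (fun i : Ι => fun t : Ι → ℂˣ => (((t i)⁻¹ : ℂˣ) : ℂ)))

variable {O : Subring ℂ}

/-- Evaluation at a point of the torus. -/
def ev (t : Ι → ℂˣ) : LRing O Ι →+* ℂ :=
  (Pi.evalRingHom (fun _ : Ι → ℂˣ => ℂ) t).comp (LRing O Ι).subtype

@[simp] lemma ev_apply (t : Ι → ℂˣ) (x : LRing O Ι) : ev t x = x.1 t := rfl

/-- The coordinates, as units. -/
def tU (i : Ι) : (LRing O Ι)ˣ where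
  val := ⟨fun t => ((t i : ℂˣ) : ℂ), Subring.subset_closure (Or.inl (Or.inr ⟨i, rfl⟩))⟩
  inv := ⟨fun t => (((t i)⁻¹ : ℂˣ) : ℂ), Subring.subset_closure (Or.inr ⟨i, rfl⟩)⟩
  val_inv := by
    apply Subtype.ext
    funext t
    show ((t i : ℂˣ) : ℂ) * (((t i)⁻¹ : ℂˣ) : ℂ) = 1
    simp
  inv_val := by
    apply Subtype.ext
    funext t
    show (((t i)⁻¹ : ℂˣ) : ℂ) * ((t i : ℂˣ) : ℂ) = 1
    simp

@[simp] lemma ev_tU (t : Ι → ℂˣ) (i : Ι) : ev t ((tU i : (LRing O Ι)ˣ) : LRing O Ι) = t i := rfl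

/-- A constant unit. -/
def constU (x y : ℂ) (hx : x ∈ O) (hy : y ∈ O) (hxy : x * y = 1) : (LRing O Ι)ˣ where
  val := ⟨fun _ => x, Subring.subset_closure (Or.inl (Or.inl ⟨⟨x, hx⟩, rfl⟩))⟩
  inv := ⟨fun _ => y, Subring.subset_closure (Or.inl (Or.inl ⟨⟨y, hy⟩, rfl⟩))⟩
  val_inv := by
    apply Subtype.ext
    funext t
    exact hxy
  inv_val := by
    apply Subtype.ext
    funext t
    show y * x = 1
    rw [mul_comm]
    exact hxy

@[simp] lemma ev_constU (t : Ι → ℂˣ) (x y : ℂ) (hx : x ∈ O) (hy : y ∈ O) (hxy : x * y = 1) :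
    ev t ((constU x y hx hy hxy : (LRing O Ι)ˣ) : LRing O Ι) = x := rfl

/-- The values on integral points are integers. -/
lemma ev_mem {t : Ι → ℂˣ} (ht : ∀ i, ((t i : ℂˣ) : ℂ) ∈ O ∧ (((t i)⁻¹ : ℂˣ) : ℂ) ∈ O)
    (x : LRing O Ι) : ev t x ∈ O := by
  obtain ⟨x, hx⟩ := x
  show x t ∈ O
  induction hx using Subring.closure_induction with
  | mem x hx =>
    rcases hx with ((⟨y, rfl⟩ | ⟨i, rfl⟩) | ⟨i, rfl⟩)
    · exact y.2
    · exact (ht i).1
    · exact (ht i).2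
  | zero => exact O.zero_mem
  | one => exact O.one_mem
  | add x y _ _ hx hy => exact O.add_mem hx hy
  | neg x _ hx => exact O.neg_mem hx
  | mul x y _ _ hx hy => exact O.mul_mem hx hy

/-! ### Laurent functions -/

variable [Fintype Ι]

/-- A function on the torus is given by a Laurent polynomial. -/
def IsLaurentFn (g : (Ι → ℂˣ) → ℂ) : Prop :=
  ∃ (P : MvPolynomial Ι ℂ) (e : ℕ), ∀ t : Ι → ℂˣ,
    g t * (∏ i, ((t i : ℂˣ) : ℂ)) ^ e = MvPolynomial.eval (fun i => ((t i : ℂˣ) : ℂ)) P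

lemma IsLaurentFn.const (c : ℂ) : IsLaurentFn (fun _ : Ι → ℂˣ => c) :=
  ⟨MvPolynomial.C c, 0, fun t => by simp⟩

lemma IsLaurentFn.coord (i : Ι) : IsLaurentFn (fun t : Ι → ℂˣ => ((t i : ℂˣ) : ℂ)) :=
  ⟨MvPolynomial.X i, 0, fun t => by simp⟩

lemma IsLaurentFn.inv_coord (i : Ι) [DecidableEq Ι] :
    IsLaurentFn (fun t : Ι → ℂˣ => (((t i)⁻¹ : ℂˣ) : ℂ)) := by
  refine ⟨∏ j ∈ Finset.univ.erase i, MvPolynomial.X j, 1, fun t => ?_⟩
  rw [pow_one, ← Finset.mul_prod_erase Finset.univ _ (Finset.mem_univ i), ← mul_assoc,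
    map_prod]
  simp

/-- Abbreviation for the product of the coordinates as a polynomial. -/
noncomputable def monoP (Ι : Type) [Fintype Ι] : MvPolynomial Ι ℂ := ∏ j, MvPolynomial.X j

lemma eval_monoP (t : Ι → ℂˣ) :
    MvPolynomial.eval (fun i => ((t i : ℂˣ) : ℂ)) (monoP Ι) = ∏ i, ((t i : ℂˣ) : ℂ) := by
  simp [monoP, map_prod]

lemma IsLaurentFn.add {g h : (Ι → ℂˣ) → ℂ} (hg : IsLaurentFn g) (hh : IsLaurentFn h) :
    IsLaurentFn (fun t => g t + h t) := by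
  obtain ⟨P, e, hP⟩ := hg
  obtain ⟨Q, e', hQ⟩ := hh
  refine ⟨P * monoP Ι ^ e' + Q * monoP Ι ^ e, e + e', fun t => ?_⟩
  rw [map_add, map_mul, map_mul, map_pow, map_pow, eval_monoP, ← hP, ← hQ]
  ring

lemma IsLaurentFn.mul {g h : (Ι → ℂˣ) → ℂ} (hg : IsLaurentFn g) (hh : IsLaurentFn h) :
    IsLaurentFn (fun t => g t * h t) := by
  obtain ⟨P, e, hP⟩ := hg
  obtain ⟨Q, e', hQ⟩ := hh
  refine ⟨P * Q, e + e', fun t => ?_⟩
  rw [map_mul, ← hP, ← hQ]
  ring

lemma IsLaurentFn.neg {g : (Ι → ℂˣ) → ℂ} (hg : IsLaurentFn g) :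
    IsLaurentFn (fun t => - g t) := by
  obtain ⟨P, e, hP⟩ := hg
  refine ⟨-P, e, fun t => ?_⟩
  rw [map_neg, ← hP]
  ring

/-- Elements of the ring are Laurent functions. -/
lemma isLaurentFn_ev (x : LRing O Ι) : IsLaurentFn (fun t : Ι → ℂˣ => ev t x) := by
  classical
  obtain ⟨x, hx⟩ := x
  show IsLaurentFn x
  induction hx using Subring.closure_induction with
  | mem x hx =>
    rcases hx with ((⟨y, rfl⟩ | ⟨i, rfl⟩) | ⟨i, rfl⟩)
    · exact IsLaurentFn.const _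
    · exact IsLaurentFn.coord i
    · exact IsLaurentFn.inv_coord i
  | zero => exact IsLaurentFn.const 0
  | one => exact IsLaurentFn.const 1
  | add x y _ _ hx hy => exact hx.add hy
  | neg x _ hx => exact hx.neg
  | mul x y _ _ hx hy => exact hx.mul hy

/-- Polynomial expressions in Laurent functions are Laurent functions. -/
lemma IsLaurentFn.aeval {V : Type} {G : V → (Ι → ℂˣ) → ℂ} (hG : ∀ p, IsLaurentFn (G p))
    (f : MvPolynomial V ℂ) :
    IsLaurentFn (fun t => MvPolynomial.aeval (fun p => G p t) f) := by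
  induction f using MvPolynomial.induction_on with
  | C c =>
    simpa using IsLaurentFn.const c
  | add p q hp hq =>
    simpa using hp.add hq
  | mul_X p i hp =>
    simpa using hp.mul (hG i)

/-- A Laurent function vanishing on the product of infinite sets is trivial. -/
lemma IsLaurentFn.eq_zero {g : (Ι → ℂˣ) → ℂ} (hg : IsLaurentFn g) (S : Set ℂˣ) (hS : S.Infinite)
    (h : ∀ t : Ι → ℂˣ, (∀ i, t i ∈ S) → g t = 0) (t : Ι → ℂˣ) : g t = 0 := by
  obtain ⟨P, e, hP⟩ := hg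
  have hP0 : P = 0 := by
    apply MvPolynomial.funext_set (fun _ : Ι => ((fun u : ℂˣ => (u : ℂ)) '' S))
    · intro i
      exact hS.image (fun a _ b _ hab => Units.ext hab)
    · intro x hx
      have hx' : ∀ i, ∃ u ∈ S, (u : ℂ) = x i := fun i => hx i (Set.mem_univ i)
      choose u hu hux using hx'
      have hx2 : x = fun i => ((u i : ℂˣ) : ℂ) := by
        funext i
        exact (hux i).symm
      rw [hx2, ← hP u, h u hu, zero_mul, map_zero]
  have h1 := hP t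
  rw [hP0, map_zero] at h1
  have h2 : (∏ i, ((t i : ℂˣ) : ℂ)) ^ e ≠ 0 :=
    pow_ne_zero _ (Finset.prod_ne_zero_iff.mpr fun i _ => (t i).ne_zero)
  exact (mul_eq_zero.mp h1).resolve_right h2

end Vale.Agent.Lib.P002.Surf
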