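import Mathlib
import Vale.Agent.Lib.P002.Surf.Class
import Vale.Agent.Lib.P002.Surf.Laurent

set_option linter.unusedSectionVars false
set_option linter.unusedVariables false
set_option linter.unusedSimpArgs false
set_option linter.unnecessarySeqFocus false

namespace Vale.Agent.Lib.P002.Surf

open Matrix

variable {R : Type*} [CommRing R] {n s g : ℕ}

/-- The matrices for the generators, over the coefficient ring of the chart. -/
noncomputable def gensGL (I : Inp R n s g) (hm : 4 ≤ mm s g) : Gens g (s + 1) → GLr R (n + 2)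
  | Sum.inl i => xW I hm (g - 1 - i)
  | Sum.inr (Sum.inl i) => yW I hm (g - 1 - i)
  | Sum.inr (Sum.inr j) => if j.val < s then sWd I hm (s - 1 - j) else ((HH I hm)⁻¹).1

lemma gensGL_det (I : Inp R n s g) (hm : 4 ≤ mm s g) (x : Gens g (s + 1)) :
    gdet (gensGL I hm x) = 1 := by
  rcases x with i | i | j
  · exact gdet_xW I hm _ (by have := i.isLt; omega)
  · exact gdet_yW I hm _ (by have := i.isLt; omega)
  · simp only [gensGL]
    split_ifs with h
    · exact gdet_sWd I hm _ (by omega)
    · have h1 : (((HH I hm)⁻¹ : Bp R (n + 2)).1 : GLr R (n + 2)) = ((HH I hm).1)⁻¹ := rfl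
      rw [h1, map_inv, ← HH_word, map_mul, gdet_prodDown_one (fun j _ => gdet_hWd I hm j),
        gdet_prodDown_one (fun j hj => gdet_sWd I hm j hj)]
      simp

lemma gensGL_relation (I : Inp R n s g) (hm : 4 ≤ mm s g) :
    (List.ofFn fun i : Fin g => gensGL I hm (Sum.inl i) * gensGL I hm (Sum.inr (Sum.inl i)) *
        (gensGL I hm (Sum.inl i))⁻¹ * (gensGL I hm (Sum.inr (Sum.inl i)))⁻¹).prod *
      (List.ofFn fun j : Fin (s + 1) => gensGL I hm (Sum.inr (Sum.inr j))).prod = 1 := by
  have h1 : (List.ofFn fun i : Fin g => gensGL I hm (Sum.inl i) *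
        gensGL I hm (Sum.inr (Sum.inl i)) *
        (gensGL I hm (Sum.inl i))⁻¹ * (gensGL I hm (Sum.inr (Sum.inl i)))⁻¹).prod =
      prodDown (hWd I hm) g := by
    rw [← prod_ofFn_rev]
    have h3 : (fun i : Fin g => gensGL I hm (Sum.inl i) *
        gensGL I hm (Sum.inr (Sum.inl i)) *
        (gensGL I hm (Sum.inl i))⁻¹ * (gensGL I hm (Sum.inr (Sum.inl i)))⁻¹) =
        fun j : Fin g => hWd I hm (g - 1 - j) := by
      funext i
      simp only [gensGL]
      exact commutator_xy I hm _
    rw [h3]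
  have h2 : (List.ofFn fun j : Fin (s + 1) => gensGL I hm (Sum.inr (Sum.inr j))).prod =
      prodDown (sWd I hm) s * ((HH I hm)⁻¹).1 := by
    rw [List.ofFn_succ', List.prod_concat, ← prod_ofFn_rev]
    congr 2
    · congr 1
      funext j
      simp [gensGL]
    · simp [gensGL]
  rw [h1, h2, ← mul_assoc, HH_word]
  show (HH I hm).1 * ((HH I hm).1)⁻¹ = 1
  simp

/-- The generators are conjugate to upper triangular matrices with the prescribed diagonals. -/
lemma gensGL_class (I : Inp R n s g) (hm : 4 ≤ mm s g) (j : Fin (s + 1)) :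
    ∃ (P : GLr R (n + 2)) (B : Bp R (n + 2)), gensGL I hm (Sum.inr (Sum.inr j)) = P * B.1 * P⁻¹ ∧
      dg B = I.a j := by
  simp only [gensGL]
  split_ifs with h
  · refine ⟨_, _, sWd_conj I hm _ (by omega), ?_⟩
    rw [dg_sBd]
    congr 1
    omega
  · refine ⟨1, (HH I hm)⁻¹, by simp, ?_⟩
    have hj : j.val = s := by have := j.isLt; omega
    rw [dg_inv, dg_HH, DD_eq, hj]
    simp

/-- From invertible matrices of determinant one to the special linear group. -/
def toSL {r : ℕ} (A : GLr ℂ r) (h : gdet A = 1) : SLr r :=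
  ⟨A.1, by
    have := congrArg (fun x : ℂˣ => (x : ℂ)) h
    simpa using this⟩

/-- The inclusion of the special linear group into the invertible matrices. -/
def slGL {r : ℕ} : SLr r →* GLr ℂ r where
  toFun A := ⟨A.1, ((A⁻¹ : SLr r)).1, by
      rw [← Matrix.SpecialLinearGroup.coe_mul]; simp,
    by
      rw [← Matrix.SpecialLinearGroup.coe_mul]; simp⟩
  map_one' := by
    apply Units.ext
    simp
  map_mul' A B := by
    apply Units.ext
    simp

lemma slGL_injective {r : ℕ} : Function.Injective (slGL (r := r)) := by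
  intro A B h
  apply Subtype.ext
  exact congrArg (fun x : GLr ℂ r => x.1) h

lemma slGL_toSL {r : ℕ} (A : GLr ℂ r) (h : gdet A = 1) : slGL (toSL A h) = A := by
  apply Units.ext
  rfl

lemma gdet_GLmap {S : Type*} [CommRing S] (f : R →+* S) {r : ℕ} (A : GLr R r) (h : gdet A = 1) :
    gdet (GLmap f A) = 1 := by
  apply Units.ext
  rw [gdet_val]
  have h1 : (GLmap f A).1 = f.mapMatrix A.1 := rfl
  rw [h1, ← RingHom.map_det]
  have h2 := congrArg (fun x : Rˣ => (x : R)) h
  simp only [gdet_val, Units.val_one] at h2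
  rw [h2]
  simp

/-- The representation attached to a homomorphism to the complex numbers. -/
noncomputable def repOf (I : Inp R n s g) (hm : 4 ≤ mm s g) (f : R →+* ℂ) :
    RepData (n + 2) g (s + 1) :=
  fun x => toSL (GLmap f (gensGL I hm x)) (gdet_GLmap f _ (gensGL_det I hm x))

lemma slGL_repOf (I : Inp R n s g) (hm : 4 ≤ mm s g) (f : R →+* ℂ) (x : Gens g (s + 1)) :
    slGL (repOf I hm f x) = GLmap f (gensGL I hm x) := slGL_toSL _ _

lemma point_repOf (I : Inp R n s g) (hm : 4 ≤ mm s g) (f : R →+* ℂ) (p : Var (n + 2) g (s + 1)) :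
    point (repOf I hm f) p = f ((gensGL I hm p.1).1 p.2.1 p.2.2) := rfl

lemma repOf_relation (I : Inp R n s g) (hm : 4 ≤ mm s g) (f : R →+* ℂ) :
    SurfaceRelation (repOf I hm f) := by
  apply slGL_injective
  rw [map_mul, map_list_prod, map_list_prod, List.map_ofFn, List.map_ofFn, map_one]
  have h := congrArg (GLmap f) (gensGL_relation I hm)
  rw [map_mul, map_list_prod, map_list_prod, List.map_ofFn, List.map_ofFn, map_one] at h
  rw [← h]
  congr 3
  · funext i
    simp only [Function.comp, map_mul, map_inv, slGL_repOf]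
  · funext i
    simp only [Function.comp, slGL_repOf]

lemma repOf_class (I : Inp R n s g) (hm : 4 ≤ mm s g) (f : R →+* ℂ) (d : Fin (s + 1) → Fin (n + 2) → ℂ)
    (hd : ∀ j, Function.Injective (d j)) (hd' : ∀ (j : Fin (s + 1)) i, f (I.a j i) = d j i)
    (j : Fin (s + 1)) : InDiagClass (d j) (repOf I hm f (Sum.inr (Sum.inr j))) := by
  obtain ⟨P, B, hPB, hB⟩ := gensGL_class I hm j
  apply inDiagClass_of_conj _ (GLmap f P) ⟨GLmap f B.1, GLmap_Bp f B.2⟩ (d j) (hd j)
  · intro i
    show f (B.1.1 i i) = _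
    rw [← hd' j i, ← hB]
    rfl
  · have h1 : ((repOf I hm f (Sum.inr (Sum.inr j)) : SLr (n + 2)) :
        Matrix (Fin (n + 2)) (Fin (n + 2)) ℂ) = (GLmap f (gensGL I hm (Sum.inr (Sum.inr j)))).1 := rfl
    rw [h1, hPB]
    simp only [map_mul, map_inv]
    rfl

end Vale.Agent.Lib.P002.Surf
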