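import Mathlib
import Vale.Agent.Lib.P002.Surf.Chart

set_option linter.unusedSectionVars false
set_option linter.unusedVariables false
set_option linter.unusedSimpArgs false
set_option linter.unnecessarySeqFocus false

namespace Vale.Agent.Lib.P002.Surf

open Matrix

/-- Pairs `(l, j)` with `j < l ≤ n`. -/
abbrev LowIdx (n : ℕ) := Σ l : Fin (n + 1), Fin l.val

/-- The free parameters of the chart. -/
abbrev ParIdx (n s g : ℕ) :=
  (Fin (mm s g - 2) × LowIdx n) ⊕ (Fin (mm s g - 4) × Fin (n + 1)) ⊕ (Fin (2 * g) × Fin (n + 1))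

lemma card_LowIdx_mul_two (n : ℕ) : Fintype.card (LowIdx n) * 2 = (n + 1) * n := by
  rw [Fintype.card_sigma]
  simp only [Fintype.card_fin]
  have h : ∑ a : Fin (n + 1), a.val = ∑ a ∈ Finset.range (n + 1), a :=
    Fin.sum_univ_eq_sum_range (fun a => a) (n + 1)
  rw [h, Finset.sum_range_id_mul_two]
  simp

lemma card_ParIdx {n s g : ℕ} (hm : 4 ≤ mm s g) :
    Fintype.card (ParIdx n s g) =
      (n + 2 - 1) * ((2 * g + (s + 1) - 2) * (n + 2) + 2 * g - 2) := by
  have hL := card_LowIdx_mul_two n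
  simp only [ParIdx, Fintype.card_sum, Fintype.card_prod, Fintype.card_fin]
  obtain ⟨A, hA⟩ : ∃ A, s + 2 * g = A + 2 := ⟨s + 2 * g - 2, by simp only [mm] at hm; omega⟩
  have h1 : mm s g - 2 = 2 * A + 2 := by simp only [mm]; omega
  have h2 : mm s g - 4 = 2 * A := by simp only [mm]; omega
  have h3 : 2 * g + (s + 1) - 2 = A + 1 := by omega
  have h4 : (A + 1) * (n + 2) + 2 * g - 2 = (A + 1) * n + 2 * A + 2 * g := by
    have : (A + 1) * (n + 2) = (A + 1) * n + 2 * A + 2 := by ring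
    omega
  rw [h1, h2, h3, h4]
  have h5 : n + 2 - 1 = n + 1 := by omega
  rw [h5]
  calc (2 * A + 2) * Fintype.card (LowIdx n) + (2 * A * (n + 1) + 2 * g * (n + 1))
      = (A + 1) * (Fintype.card (LowIdx n) * 2) + (2 * A * (n + 1) + 2 * g * (n + 1)) := by ring
    _ = _ := by rw [hL]; ring

/-- The input data of the chart over the ring of Laurent polynomials. -/
noncomputable def chartInp {n s g : ℕ} (O : Subring ℂ)
    (A : Fin (s + 1) → Fin (n + 2) → (LRing O (ParIdx n s g))ˣ) (hA : ∀ k, ∏ i, A k i = 1) :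
    Inp (LRing O (ParIdx n s g)) n s g where
  cl := fun i l j => if h : 1 ≤ i ∧ i ≤ mm s g - 2 ∧ l ≤ n ∧ j < l then
      tU (Sum.inl (⟨i - 1, by omega⟩, ⟨⟨l, by omega⟩, ⟨j, h.2.2.2⟩⟩)) else 1
  tp := fun i q => if h : 3 ≤ i ∧ i ≤ mm s g - 2 ∧ q ≤ n then
      tU (Sum.inr (Sum.inl (⟨i - 3, by omega⟩, ⟨q, by omega⟩))) else 1
  zf := fun k q => if h : k < 2 * g then tU (Sum.inr (Sum.inr (⟨k, h⟩, q))) else 1
  a := fun k i => if h : k < s + 1 then A ⟨k, h⟩ i else 1
  hprod := fun k => by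
    by_cases h : k < s + 1
    · simp only [h, dif_pos]
      exact hA _
    · simp [h]

/-! ### The number field -/

/-- `√2` as a complex number. -/
noncomputable def s2 : ℂ := ((Real.sqrt 2 : ℝ) : ℂ)

lemma s2_sq : s2 * s2 = 2 := by
  simp only [s2]
  rw [← Complex.ofReal_mul, Real.mul_self_sqrt (by norm_num)]
  norm_num

lemma s2_integral : IsIntegral ℤ s2 := by
  refine ⟨Polynomial.X ^ 2 - Polynomial.C 2, ?_, ?_⟩
  · exact Polynomial.monic_X_pow_sub_C _ (by norm_num)
  · simp [Polynomial.eval₂_sub, Polynomial.eval₂_pow]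
    rw [sq, s2_sq]
    simp

/-- The unit of infinite order. -/
noncomputable def epsU : ℂˣ where
  val := 1 + s2
  inv := s2 - 1
  val_inv := by linear_combination s2_sq
  inv_val := by linear_combination s2_sq

lemma epsU_pow_injective : Function.Injective fun n : ℕ => epsU ^ n := by
  intro m n h
  simp only at h
  have h0 := congrArg (fun u : ℂˣ => (u : ℂ)) h
  simp only [Units.val_pow_eq_pow_val] at h0
  have h1 : ((epsU : ℂˣ) : ℂ) = (((1 + Real.sqrt 2 : ℝ)) : ℂ) := by
    show 1 + s2 = _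
    simp [s2]
  rw [h1, ← Complex.ofReal_pow, ← Complex.ofReal_pow] at h0
  have h2 := Complex.ofReal_injective h0
  have h3 : (1 : ℝ) < 1 + Real.sqrt 2 := by
    have : 0 < Real.sqrt 2 := Real.sqrt_pos.mpr (by norm_num)
    linarith
  exact pow_right_injective₀ (by linarith) h3.ne' h2

/-- The ring of integers of a subfield of the complex numbers. -/
def ints (L : IntermediateField ℚ ℂ) : Subring ℂ where
  carrier := {x | x ∈ L ∧ IsIntegral ℤ x}
  mul_mem' := fun ha hb => ⟨L.mul_mem ha.1 hb.1, ha.2.mul hb.2⟩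
  one_mem' := ⟨L.one_mem, isIntegral_one⟩
  add_mem' := fun ha hb => ⟨L.add_mem ha.1 hb.1, ha.2.add hb.2⟩
  zero_mem' := ⟨L.zero_mem, isIntegral_zero⟩
  neg_mem' := fun ha => ⟨L.neg_mem ha.1, ha.2.neg⟩

/-- The generators of the number field. -/
def genSet {s r : ℕ} (a : Fin s → Fin r → ℂ) : Set ℂ :=
  Set.range (fun p : Fin s × Fin r => a p.1 p.2) ∪ {s2}

/-- The number field. -/
noncomputable def theField {s r : ℕ} (a : Fin s → Fin r → ℂ) : IntermediateField ℚ ℂ :=
  IntermediateField.adjoin ℚ (genSet a)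

lemma finiteDimensional_theField {s r : ℕ} {a : Fin s → Fin r → ℂ}
    (hai : ∀ j i, IsIntegral ℤ (a j i)) : FiniteDimensional ℚ (theField a) := by
  have hfin : (genSet a).Finite := (Set.finite_range _).union (Set.finite_singleton _)
  have := hfin.to_subtype
  apply IntermediateField.finiteDimensional_adjoin
  rintro x (⟨p, rfl⟩ | hx)
  · exact (hai p.1 p.2).tower_top
  · rw [Set.mem_singleton_iff.mp hx]
    exact s2_integral.tower_top

lemma mem_theField {s r : ℕ} {a : Fin s → Fin r → ℂ} {x : ℂ} (hx : x ∈ genSet a) :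
    x ∈ theField a := IntermediateField.subset_adjoin ℚ _ hx

lemma a_mem_ints {s r : ℕ} {a : Fin s → Fin r → ℂ} (hai : ∀ j i, IsIntegral ℤ (a j i))
    (j : Fin s) (i : Fin r) : a j i ∈ ints (theField a) :=
  ⟨mem_theField (Or.inl ⟨(j, i), rfl⟩), hai j i⟩

lemma s2_mem_ints {s r : ℕ} {a : Fin s → Fin r → ℂ} : s2 ∈ ints (theField a) :=
  ⟨mem_theField (Or.inr rfl), s2_integral⟩

lemma epsU_pow_mem {s r : ℕ} {a : Fin s → Fin r → ℂ} (k : ℕ) :
    (((epsU ^ k : ℂˣ)) : ℂ) ∈ ints (theField a) ∧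
      ((((epsU ^ k)⁻¹ : ℂˣ)) : ℂ) ∈ ints (theField a) := by
  constructor
  · rw [Units.val_pow_eq_pow_val]
    apply pow_mem
    exact (ints _).add_mem (ints _).one_mem s2_mem_ints
  · rw [← inv_pow, Units.val_pow_eq_pow_val]
    apply pow_mem
    exact (ints _).sub_mem s2_mem_ints (ints _).one_mem

/-- The inverse of an eigenvalue is the product of the other eigenvalues. -/
noncomputable def otherProd {r : ℕ} (d : Fin r → ℂ) (i : Fin r) : ℂ :=
  ∏ k ∈ Finset.univ.erase i, d k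

lemma mul_otherProd {r : ℕ} (d : Fin r → ℂ) (hd : ∏ i, d i = 1) (i : Fin r) :
    d i * otherProd d i = 1 := by
  rw [← hd, otherProd, Finset.mul_prod_erase _ _ (Finset.mem_univ i)]

lemma otherProd_mem {r : ℕ} {O : Subring ℂ} {d : Fin r → ℂ} (h : ∀ i, d i ∈ O) (i : Fin r) :
    otherProd d i ∈ O := prod_mem fun k _ => h k

/-- The constant units of the chart. -/
noncomputable def constA {r s : ℕ} {Ι : Type} (O : Subring ℂ) (a : Fin s → Fin r → ℂ)
    (ha : ∀ j i, a j i ∈ O) (hp : ∀ j, ∏ i, a j i = 1) (j : Fin s) (i : Fin r) : (LRing O Ι)ˣ :=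
  constU (a j i) (otherProd (a j) i) (ha j i) (otherProd_mem (ha j) i) (mul_otherProd _ (hp j) i)

lemma prod_constA {r s : ℕ} {Ι : Type} (O : Subring ℂ) (a : Fin s → Fin r → ℂ)
    (ha : ∀ j i, a j i ∈ O) (hp : ∀ j, ∏ i, a j i = 1) (j : Fin s) :
    ∏ i, (constA (Ι := Ι) O a ha hp j i) = 1 := by
  apply Units.ext
  apply Subtype.ext
  funext t
  rw [Units.val_one]
  show ((((∏ i, (constA (Ι := Ι) O a ha hp j i) : (LRing O Ι)ˣ) : LRing O Ι)) :
    (Ι → ℂˣ) → ℂ) t = 1
  rw [Units.coe_prod]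
  have h : ∀ x : Finset (Fin r),
      (((∏ i ∈ x, ((constA (Ι := Ι) O a ha hp j i : (LRing O Ι)ˣ) : LRing O Ι)) : LRing O Ι) :
        (Ι → ℂˣ) → ℂ) t = ∏ i ∈ x, a j i := by
    intro x
    have := map_prod (ev (O := O) t) (fun i => ((constA (Ι := Ι) O a ha hp j i : (LRing O Ι)ˣ) : LRing O Ι)) x
    exact this
  rw [h]
  exact hp j

section main

variable {n s g : ℕ} (a : Fin (s + 1) → Fin (n + 2) → ℂ)
  (hai : ∀ j i, IsIntegral ℤ (a j i)) (hp : ∀ j, ∏ i, a j i = 1)
  (hinj : ∀ j, Function.Injective (a j)) (hm : 4 ≤ mm s g)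

/-- The input of the chart for given boundary eigenvalues. -/
noncomputable def theInp : Inp (LRing (ints (theField a)) (ParIdx n s g)) n s g :=
  chartInp (ints (theField a))
    (constA (ints (theField a)) a (a_mem_ints hai) hp) (prod_constA _ _ _ _)

lemma ev_theInp_a (t : ParIdx n s g → ℂˣ) (j : Fin (s + 1)) (i : Fin (n + 2)) :
    ev t (((theInp a hai hp).a j i : (LRing (ints (theField a)) (ParIdx n s g))ˣ) :
      LRing (ints (theField a)) (ParIdx n s g)) = a j i := by
  have h : j.val < s + 1 := j.isLt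
  simp only [theInp, chartInp]
  rw [dif_pos h]
  rfl

/-- The parametrisation by the torus indexed by the free parameters. -/
noncomputable def chiI (t : ParIdx n s g → ℂˣ) : RepData (n + 2) g (s + 1) :=
  repOf (theInp a hai hp) hm (ev t)

include hinj in
lemma chiI_mem (t : ParIdx n s g → ℂˣ) : chiI a hai hp hm t ∈ RelRep a :=
  ⟨repOf_relation _ hm _, fun j => repOf_class _ hm _ a hinj (fun j i => ev_theInp_a a hai hp t j i) j⟩

lemma chiI_integral (t : ParIdx n s g → ℂˣ)
    (ht : ∀ i, ((t i : ℂˣ) : ℂ) ∈ ints (theField a) ∧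
      (((t i)⁻¹ : ℂˣ) : ℂ) ∈ ints (theField a)) :
    IsOLPoint (theField a) (chiI a hai hp hm t) := by
  intro p
  exact ev_mem ht _

lemma chiI_laurent (p : Var (n + 2) g (s + 1)) :
    IsLaurentFn (fun t : ParIdx n s g → ℂˣ => point (chiI a hai hp hm t) p) :=
  isLaurentFn_ev _

include hinj in
/-- The density statement on the torus of parameters. -/
lemma chiI_density (f : MvPolynomial (Var (n + 2) g (s + 1)) ℂ)
    (h : ∀ ρ ∈ RelRep (g := g) a, IsOLPoint (theField a) ρ →
      MvPolynomial.aeval (point ρ) f = 0) (t : ParIdx n s g → ℂˣ) :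
    MvPolynomial.aeval (point (chiI a hai hp hm t)) f = 0 := by
  have hL := IsLaurentFn.aeval (G := fun p (t : ParIdx n s g → ℂˣ) => point (chiI a hai hp hm t) p)
    (chiI_laurent a hai hp hm) f
  refine hL.eq_zero (Set.range fun k : ℕ => epsU ^ k)
    (Set.infinite_range_of_injective epsU_pow_injective) (fun t ht => ?_) t
  apply h _ (chiI_mem a hai hp hinj hm t)
  apply chiI_integral
  intro i
  obtain ⟨k, hk⟩ := ht i
  rw [← hk]
  exact epsU_pow_mem k

end main

end Vale.Agent.Lib.P002.Surf
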