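import Mathlib
import Vale.Agent.Lib.P002.Surf.Param
import Vale.Agent.Lib.P002.Surf.Rigid

set_option linter.unusedSectionVars false
set_option linter.unusedVariables false
set_option linter.unusedSimpArgs false
set_option linter.unnecessarySeqFocus false

namespace Vale.Agent.Lib.P002.Surf

open Matrix

variable {R : Type*} [CommRing R] {n s g : ℕ}

/-- The parameters of all the triangles. -/
noncomputable def cc (I : Inp R n s g) (i : ℕ) : ℕ → ℕ → Rˣ :=
  if i = 1 then withTop (I.cl 1) (topLayer (I.cl 1) (tauN I) n) n else cOf I i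

lemma TT_u (I : Inp R n s g) (i : ℕ) :
    (TT I i).u = UcG (fun l j => ((cc I i l j : Rˣ) : R)) (n + 1) := by
  by_cases h : i = 1
  · subst h
    simp only [TT, cc, if_true, T1_u]
  · simp only [TT, cc, h, if_false, T2_u]

lemma Uc_map {S : Type*} [CommRing S] (f : R →+* S) (c : ℕ → ℕ → R) (m : ℕ) : ∀ i j,
    f (Uc c m i j) = Uc (fun l j => f (c l j)) m i j := by
  induction m with
  | zero =>
    intro i j
    rw [Uc_zero, Uc_zero]
    split_ifs <;> simp
  | succ m ih =>
    intro i j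
    cases j with
    | zero => rw [Uc_succ_zero, Uc_succ_zero, ih]
    | succ j =>
      by_cases hj : j ≤ m
      · rw [Uc_succ_succ _ m i j hj, Uc_succ_succ _ m i j hj, map_add, map_mul, ih, ih]
      · rw [Uc_succ_big _ m i j (by omega), Uc_succ_big _ m i j (by omega), ih]

lemma fan_uu_apply (I : Inp R n s g) (hm : 4 ≤ mm s g) (f : R →+* ℂ) (i : ℕ)
    (a b : Fin (n + 2)) :
    (((theFan I hm).map f).uu i).1 a b =
      Uc (fun l j => f ((cc I i l j : Rˣ) : R)) (n + 1) a b := by
  show f (((TT I i).u).1 a b) = _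
  rw [TT_u, UcG_val]
  exact Uc_map f _ _ _ _

/-- Conjugation by a diagonal matrix on entries. -/
lemma tor_conj_apply {r : ℕ} (p : Fin r → ℂˣ) (X : GLr ℂ r) (a b : Fin r) :
    (tor p * X * (tor p)⁻¹).1 a b = (p a : ℂ) * X.1 a b * ((p b : ℂ))⁻¹ := by
  rw [← tor_inv]
  show (Matrix.diagonal (fun i => ((p i : ℂˣ) : ℂ)) * X.1 *
    Matrix.diagonal (fun i => (((p⁻¹) i : ℂˣ) : ℂ))) a b = _
  rw [Matrix.mul_diagonal, Matrix.diagonal_mul]
  simp

lemma tor_injective {r : ℕ} {z z' : Fin r → ℂˣ} (h : tor z = tor z') : z = z' := by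
  funext i
  apply Units.ext
  have := congrArg (fun g : GLr ℂ r => g.1 i i) h
  simpa [tor_apply] using this

section rigid

variable (I : Inp R n s g) (hm : 4 ≤ mm s g) (f f' : R →+* ℂ)
  (ha : ∀ k, k ≤ s → ∀ i, f (I.a k i) = f' (I.a k i))
  (hinj : ∀ k, k ≤ s → Function.Injective fun i => f (I.a k i))
  (P : GLr ℂ (n + 2))
  (hgen : ∀ x : Gens g (s + 1), GLmap f' (gensGL I hm x) = P * GLmap f (gensGL I hm x) * P⁻¹)

include ha hinj hgen

lemma hgen_sW (j : ℕ) (hj : j < s) :
    GLmap f' (sWd I hm j) = P * GLmap f (sWd I hm j) * P⁻¹ := by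
  have h1 := hgen (Sum.inr (Sum.inr ⟨s - 1 - j, by omega⟩))
  have h2 : (⟨s - 1 - j, by omega⟩ : Fin (s + 1)).val < s := by
    show s - 1 - j < s
    omega
  have e : s - 1 - (s - 1 - j) = j := by omega
  simp only [gensGL, if_pos h2] at h1
  simpa only [e] using h1

lemma hgen_x (i : ℕ) (hi : i < g) :
    GLmap f' (xW I hm i) = P * GLmap f (xW I hm i) * P⁻¹ := by
  have h1 := hgen (Sum.inl ⟨g - 1 - i, by omega⟩)
  have e : g - 1 - (g - 1 - i) = i := by omega
  simp only [gensGL] at h1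
  simpa only [e] using h1

lemma hgen_y (i : ℕ) (hi : i < g) :
    GLmap f' (yW I hm i) = P * GLmap f (yW I hm i) * P⁻¹ := by
  have h1 := hgen (Sum.inr (Sum.inl ⟨g - 1 - i, by omega⟩))
  have e : g - 1 - (g - 1 - i) = i := by omega
  simp only [gensGL] at h1
  simpa only [e] using h1

lemma hgen_H :
    GLmap f' ((HH I hm)⁻¹).1 = P * GLmap f ((HH I hm)⁻¹).1 * P⁻¹ := by
  have h1 := hgen (Sum.inr (Sum.inr ⟨s, by omega⟩))
  simp only [gensGL] at h1
  simpa using h1

/-- The conjugating matrix is upper triangular. -/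
lemma P_mem_Bp : P ∈ Bp ℂ (n + 2) := by
  have h1 := hgen_H I hm f f' ha hinj P hgen
  have hdg : ∀ (φ : R →+* ℂ) (i : Fin (n + 2)),
      (GLmap φ ((HH I hm)⁻¹).1).1 i i = φ (I.a s i) := by
    intro φ i
    show φ (((HH I hm)⁻¹).1.1 i i) = _
    have h2 : dg ((HH I hm)⁻¹) = I.a s := by
      rw [dg_inv, dg_HH, DD_eq]
      simp
    have h3 := congrFun h2 i
    rw [← h3]
    rfl
  apply UT_of_intertwine (GLmap_Bp f ((HH I hm)⁻¹).2) (GLmap_Bp f' ((HH I hm)⁻¹).2)
    (fun i => f (I.a s i)) (hinj s le_rfl) (fun i => hdg f i)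
    (fun i => by rw [hdg f', ha s le_rfl])
  have h4 : GLmap f' ((HH I hm)⁻¹).1 * P = P * GLmap f ((HH I hm)⁻¹).1 := by
    rw [h1]
    group
  exact (congrArg (fun g : GLr ℂ (n + 2) => g.1) h4).symm

/-- All the comparison matrices are upper triangular. -/
lemma Dfr_chart (x : ℕ) (hx : x ≤ mm s g) :
    Dfr (((theFan I hm).map f).chain (by omega)) (((theFan I hm).map f').chain (by omega))
      (P) x ∈ Bp ℂ (n + 2) := by
  rw [Fan.map_chain, Fan.map_chain]
  apply Dfr_all (m := mm s g) (s := s) (g := g) _ _ _ rfl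
    (fun j => mapZ f (Zs I hm j)) (fun j => mapZ f' (Zs I hm j))
    (fun i => mapZ f (zH I i)) (fun i => mapZ f' (zH I i))
    (fun i => mapZ f (zH' I i)) (fun i => mapZ f' (zH' I i))
  · intro j hj
    have h1 := hgen_sW I hm f f' ha hinj P hgen j hj
    simp only [sWd] at h1
    rw [Chain.map_sW, Chain.map_sW] at h1
    exact h1
  · intro j hj
    rw [Chain.map_sB, Chain.map_sB, dg_mapB, dg_mapB]
    show mapZ f (dg (sBd I hm j)) = mapZ f' (dg (sBd I hm j))
    rw [dg_sBd]
    funext i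
    apply Units.ext
    exact ha _ (by omega) i
  · intro j hj
    rw [Chain.map_sB, dg_mapB]
    show Function.Injective fun i => ((mapZ f (dg (sBd I hm j)) i : ℂˣ) : ℂ)
    rw [dg_sBd]
    exact hinj _ (by omega)
  · intro i hi
    have h1 := hgen_y I hm f f' ha hinj P hgen i hi
    simp only [yW, map_inv] at h1
    rw [Chain.map_hA, Chain.map_hA] at h1
    have h2 := congrArg (fun g => g⁻¹) h1
    simp only [inv_inv] at h2
    refine h2.trans ?_
    group
    rfl
  · intro i hi
    have h1 := hgen_x I hm f f' ha hinj P hgen i hi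
    simp only [xW] at h1
    rw [Chain.map_hB, Chain.map_hB] at h1
    exact h1
  · exact P_mem_Bp I hm f f' ha hinj P hgen
  · exact hx

lemma P_mem_Bm : P ∈ Bm ℂ (n + 2) := by
  have hm2 : 2 ≤ mm s g := by omega
  have := Dfr_mem_Bm (((theFan I hm).map f).chain hm2) (((theFan I hm).map f').chain hm2) (P)
    (Dfr_chart I hm f f' ha hinj P hgen) (x := 0) (by omega)
  simpa [Dfr_zero] using this

/-- The diagonal of the conjugating matrix, as a function of a natural number. -/
noncomputable def pN (p : Fin (n + 2) → ℂˣ) (k : ℕ) : ℂ :=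
  if hk : k < n + 2 then ((p ⟨k, hk⟩ : ℂˣ) : ℂ) else 1

omit ha hinj hgen in
lemma pN_ne (p : Fin (n + 2) → ℂˣ) (k : ℕ) : pN p k ≠ 0 := by
  simp only [pN]
  split_ifs
  · exact Units.ne_zero _
  · exact one_ne_zero

omit ha hinj hgen in
lemma pN_val (p : Fin (n + 2) → ℂˣ) (a : Fin (n + 2)) : pN p a = p a := by
  simp [pN]

/-- The parameters of the triangles of the two representations are related by the diagonal. -/
lemma layers_rel (p : Fin (n + 2) → ℂˣ) (hp : P = tor p) {i : ℕ} (h1 : 1 ≤ i)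
    (hi : i + 2 ≤ mm s g) {l j : ℕ} (hl : 1 ≤ l) (hl' : l ≤ n + 1) (hj : j < l) :
    f' ((cc I i l j : Rˣ) : R) = f ((cc I i l j : Rˣ) : R) * pN p j * (pN p (j + 1))⁻¹ := by
  have hm2 : 2 ≤ mm s g := by omega
  have hU := uu_conj ((theFan I hm).map f) ((theFan I hm).map f') hm2 (P)
    (Dfr_chart I hm f f' ha hinj P hgen) h1 hi
  refine Uc_inj (c := fun l j => f' ((cc I i l j : Rˣ) : R))
    (c' := fun l j => f ((cc I i l j : Rˣ) : R) * pN p j * (pN p (j + 1))⁻¹) (n + 1)
    (fun l j => ?_) (fun a b ha' hb' => ?_) l j hl hl' hj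
  · exact ((cc I i l j).isUnit.map f').ne_zero
  · rw [Uc_scale _ (pN p) (pN_ne p)]
    have h2 := fan_uu_apply I hm f' i ⟨a, by omega⟩ ⟨b, by omega⟩
    have h3 := fan_uu_apply I hm f i ⟨a, by omega⟩ ⟨b, by omega⟩
    rw [← h2, ← h3, hU, hp, tor_conj_apply, ← pN_val p ⟨a, by omega⟩, ← pN_val p ⟨b, by omega⟩]

omit ha hinj hgen in
lemma cc_two_top (j : ℕ) : cc I 2 (n + 1) j = 1 := by
  simp [cc, cOf, withTop]

/-- The conjugating matrix is scalar. -/
lemma scalar_conj (p : Fin (n + 2) → ℂˣ) (hp : P = tor p) (j : ℕ) (hj : j ≤ n) :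
    pN p (j + 1) = pN p j := by
  have h1 := layers_rel I hm f f' ha hinj P hgen p hp (i := 2) (by omega)
    (by simp only [mm] at hm ⊢; omega) (l := n + 1) (j := j) (by omega) le_rfl (by omega)
  rw [cc_two_top] at h1
  simp only [Units.val_one, map_one, one_mul] at h1
  have h2 := pN_ne p (j + 1)
  field_simp at h1
  exact h1

lemma pN_const (p : Fin (n + 2) → ℂˣ) (hp : P = tor p) (k : ℕ) (hk : k ≤ n + 1) :
    pN p k = pN p 0 := by
  induction k with
  | zero => rfl
  | succ k ih =>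
    rw [scalar_conj I hm f f' ha hinj P hgen p hp k (by omega), ih (by omega)]

theorem chart_rigid :
    (∀ i l j, 1 ≤ i → i + 2 ≤ mm s g → 1 ≤ l → l ≤ n + 1 → j < l →
      f' ((cc I i l j : Rˣ) : R) = f ((cc I i l j : Rˣ) : R)) ∧
    (∀ k q, k < 2 * g → f' ((I.zf k q : Rˣ) : R) = f ((I.zf k q : Rˣ) : R)) ∧
    ∃ c : ℂˣ, P = tor (fun _ => c) := by
  have hm2 : 2 ≤ mm s g := by omega
  have hP0 := P_mem_Bp I hm f f' ha hinj P hgen
  have hP1 := P_mem_Bm I hm f f' ha hinj P hgen
  let p : Fin (n + 2) → ℂˣ := dg ⟨P, hP0⟩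
  have hp : P = tor p := eq_tor_of_mem hP0 hP1
  have hpc : ∀ a b : Fin (n + 2), p a = p b := by
    intro a b
    apply Units.ext
    rw [← pN_val p a, ← pN_val p b, pN_const I hm f f' ha hinj P hgen p hp a (by omega),
      pN_const I hm f f' ha hinj P hgen p hp b (by omega)]
  have hpt : P = tor (fun _ => p 0) := by
    rw [hp]
    congr 1
    funext a
    exact hpc a 0
  have hc : ∀ X : GLr ℂ (n + 2), P * X = X * P := by
    intro X
    rw [hpt]
    exact tor_const_comm _ X
  have hD := Dfr_chart I hm f f' ha hinj P hgen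
  have hphi := phi_eq ((theFan I hm).map f) ((theFan I hm).map f') hm2 (P) hD hc
  have hcj : ∀ X : GLr ℂ (n + 2), P * X * (P)⁻¹ = X := by
    intro X
    rw [hc]
    group
  have hφ : ∀ x, x ≤ mm s g → GLmap f' ((theChain I hm).φ x) = GLmap f ((theChain I hm).φ x) := by
    intro x hx
    have := hphi x hx
    rw [Fan.map_phi, Fan.map_phi] at this
    exact this
  refine ⟨fun i l j h1 h2 h3 h4 h5 => ?_, fun k q hk => ?_, p 0, hpt⟩
  · rw [layers_rel I hm f f' ha hinj P hgen p hp h1 h2 h3 h4 h5,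
      pN_const I hm f f' ha hinj P hgen p hp j (by omega),
      pN_const I hm f f' ha hinj P hgen p hp (j + 1) (by omega)]
    have := pN_ne p 0
    field_simp
  · -- the twists
    have hz : ∀ i, i < g → mapZ f' (zH I i) = mapZ f (zH I i) ∧
        mapZ f' (zH' I i) = mapZ f (zH' I i) := by
      intro i hi
      have he : eE s i + 4 ≤ mm s g := by simp only [eE, mm]; omega
      constructor
      · have h1 := hgen_y I hm f f' ha hinj P hgen i hi
        rw [hcj] at h1
        simp only [yW, map_inv] at h1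
        have h2 := inv_injective h1
        simp only [Chain.hA, map_mul, map_inv, GLmap_w0, GLmap_tor] at h2
        rw [hφ _ (by omega), hφ _ (by omega)] at h2
        have h3 := mul_left_cancel (mul_right_cancel h2)
        exact tor_injective h3
      · have h1 := hgen_x I hm f f' ha hinj P hgen i hi
        rw [hcj] at h1
        simp only [xW] at h1
        simp only [Chain.hB, map_mul, map_inv, GLmap_w0, GLmap_tor] at h1
        rw [hφ _ (by omega), hφ _ (by omega)] at h1
        have h3 := mul_left_cancel (mul_right_cancel h1)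
        exact tor_injective h3
    rcases Nat.even_or_odd' k with ⟨i, rfl | rfl⟩
    · have h1 := congrFun (hz i (by omega)).1 q.castSucc
      have h2 := congrArg (fun u : ℂˣ => (u : ℂ)) h1
      simpa [mapZ, zH, snocZ] using h2
    · have h1 := congrFun (hz i (by omega)).2 q.castSucc
      have h2 := congrArg (fun u : ℂˣ => (u : ℂ)) h1
      simpa [mapZ, zH', snocZ] using h2

end rigid

end Vale.Agent.Lib.P002.Surf
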