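import Mathlib
import Vale.Agent.Lib.P002.Surf.Inject

set_option linter.unusedSectionVars false
set_option linter.unusedVariables false
set_option linter.unusedSimpArgs false
set_option linter.unnecessarySeqFocus false

namespace Vale.Agent.Lib.P002.Surf

open Matrix

variable {R : Type*} [CommRing R] {n s g : ℕ}

lemma cc_low (I : Inp R n s g) (i l j : ℕ) (hl : l ≤ n) : cc I i l j = I.cl i l j := by
  simp only [cc]
  split_ifs with h
  · subst h
    exact withTop_low _ _ _ _ _ hl
  · exact withTop_low _ _ _ _ _ hl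

lemma cc_top (I : Inp R n s g) (i q : ℕ) (hi : 3 ≤ i) (hq : q ≤ n) :
    cc I i (n + 1) (n - q) = I.tp i q := by
  have h1 : i ≠ 1 := by omega
  have h2 : i ≠ 2 := by omega
  have h3 : n - (n - q) = q := by omega
  simp [cc, cOf, withTop, h1, h2, h3]

section main

variable (a : Fin (s + 1) → Fin (n + 2) → ℂ)
  (hai : ∀ j i, IsIntegral ℤ (a j i)) (hp : ∀ j, ∏ i, a j i = 1)
  (hinj : ∀ j, Function.Injective (a j)) (hm : 4 ≤ mm s g)

include hinj in
/-- Conjugate points of the chart have the same parameters. -/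
theorem chiI_inj (t t' : ParIdx n s g → ℂˣ)
    (hc : ConjEquivalent (chiI a hai hp hm t) (chiI a hai hp hm t')) : t = t' := by
  obtain ⟨h, hconj⟩ := hc
  have ha : ∀ (φ : ParIdx n s g → ℂˣ) (k : ℕ) (hk : k ≤ s) (i : Fin (n + 2)),
      ev φ (((theInp a hai hp).a k i : (LRing (ints (theField a)) (ParIdx n s g))ˣ) :
        LRing (ints (theField a)) (ParIdx n s g)) = a ⟨k, by omega⟩ i := fun φ k hk i => ev_theInp_a a hai hp φ ⟨k, by omega⟩ i
  have H := chart_rigid (theInp a hai hp) hm (ev t) (ev t')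
    (fun k hk i => by rw [ha t k hk, ha t' k hk])
    (fun k hk => by
      simp only [ha t k hk]
      exact hinj _)
    (slGL h) (fun x => by
      rw [← slGL_repOf _ hm (ev t') x]
      have h5 := hconj x
      show slGL (chiI a hai hp hm t' x) = _
      rw [h5, map_mul, map_mul, map_inv]
      show slGL h * slGL (repOf _ hm (ev t) x) * _ = _
      rw [slGL_repOf])
  funext x
  apply Units.ext
  rcases x with ⟨i, l, j⟩ | ⟨i, q⟩ | ⟨k, q⟩
  · have hi := i.isLt
    have hj := j.isLt
    have hl := l.isLt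
    have h1 := H.1 (i.val + 1) l.val j.val (by omega) (by omega) (by omega) (by omega) hj
    rw [cc_low _ _ _ _ (by omega)] at h1
    have h2 : (theInp a hai hp).cl (i.val + 1) l.val j.val = tU (Sum.inl (i, ⟨l, j⟩)) := by
      simp only [theInp, chartInp]
      rw [dif_pos ⟨by omega, by omega, by omega, hj⟩]
      rfl
    rw [h2] at h1
    exact h1.symm
  · have hi := i.isLt
    have hq := q.isLt
    have h1 := H.1 (i.val + 3) (n + 1) (n - q.val) (by omega) (by omega) (by omega) le_rfl (by omega)
    rw [cc_top _ _ _ (by omega) (by omega)] at h1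
    have h2 : (theInp a hai hp).tp (i.val + 3) q.val = tU (Sum.inr (Sum.inl (i, q))) := by
      simp only [theInp, chartInp]
      rw [dif_pos ⟨by omega, by omega, by omega⟩]
      rfl
    rw [h2] at h1
    exact h1.symm
  · have hk := k.isLt
    have h1 := H.2.1 k.val q hk
    have h2 : (theInp a hai hp).zf k.val q = tU (Sum.inr (Sum.inr (k, q))) := by
      simp only [theInp, chartInp]
      rw [dif_pos hk]
    rw [h2] at h1
    exact h1.symm

include hai hp hinj hm in
/-- The main theorem, on the torus of the right dimension. -/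
theorem main_chart :
    ∃ L : IntermediateField ℚ ℂ, FiniteDimensional ℚ L ∧
      ∃ χ : (Fin ((n + 2 - 1) * ((2 * g + (s + 1) - 2) * (n + 2) + 2 * g - 2)) → ℂˣ) →
          RepData (n + 2) g (s + 1),
        IsLaurentMap χ ∧ (∀ t, χ t ∈ RelRep a) ∧
        (∀ t t', ConjEquivalent (χ t) (χ t') → t = t') ∧
        ∀ f : MvPolynomial (Var (n + 2) g (s + 1)) ℂ,
          (∀ ρ ∈ RelRep (g := g) a, IsOLPoint L ρ → MvPolynomial.aeval (point ρ) f = 0) →
          ∀ t, MvPolynomial.aeval (point (χ t)) f = 0 := by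
  let e : ParIdx n s g ≃ Fin ((n + 2 - 1) * ((2 * g + (s + 1) - 2) * (n + 2) + 2 * g - 2)) :=
    Fintype.equivFinOfCardEq (card_ParIdx hm)
  refine ⟨theField a, finiteDimensional_theField hai,
    fun t => chiI a hai hp hm (t ∘ e), ?_, ?_, ?_, ?_⟩
  · intro p
    obtain ⟨P, k, hP⟩ := chiI_laurent a hai hp hm p
    refine ⟨MvPolynomial.rename e P, k, fun t => ?_⟩
    have h1 := hP (t ∘ e)
    rw [MvPolynomial.eval_rename]
    have h2 : ∏ i, ((t i : ℂˣ) : ℂ) = ∏ i, (((t ∘ e) i : ℂˣ) : ℂ) :=
      (Equiv.prod_comp e (fun i => ((t i : ℂˣ) : ℂ))).symm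
    rw [h2]
    exact h1
  · exact fun t => chiI_mem a hai hp hinj hm _
  · intro t t' h
    have h1 := chiI_inj a hai hp hinj hm _ _ h
    funext i
    have h2 := congrFun h1 (e.symm i)
    simpa using h2
  · intro f hf t
    exact chiI_density a hai hp hinj hm f hf _

end main

end Vale.Agent.Lib.P002.Surf
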